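import Vale.Agent.P298.H652.Annulus

/-!
Tools for the node case: pointwise implicit function theorem with uniqueness, difference quotients
with parameters, linear algebra of a node.
-/

namespace Vale.Agent.P298.H652

open Filter Topology Metric Set Vale.Agent.P298 Vale.Agent.P298.H462

section Implicit

variable {W P : Type*} [NormedAddCommGroup W] [NormedSpace ℂ W] [CompleteSpace W]
  [NormedAddCommGroup P] [NormedSpace ℂ P] [CompleteSpace P]

/-- The analytic implicit function theorem, with uniqueness. -/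
theorem exists_implicit_pt {Ψ : W × P → W} {w₀ : W} {p₀ : P} (hΨ : AnalyticAt ℂ Ψ (w₀, p₀))
    (h0 : Ψ (w₀, p₀) = 0)
    (hinv : ∃ i : W ≃L[ℂ] W, ∀ v, fderiv ℂ Ψ (w₀, p₀) (v, 0) = i v) :
    ∃ X : P → W, AnalyticAt ℂ X p₀ ∧ X p₀ = w₀ ∧ (∀ᶠ p in 𝓝 p₀, Ψ (X p, p) = 0) ∧
      ∀ᶠ q in 𝓝 (w₀, p₀), Ψ q = 0 → q.1 = X q.2 := by
  set f : W × P → W × P := fun p => (Ψ p, p.2) with hf
  have hfa : AnalyticAt ℂ f (w₀, p₀) := hΨ.prod analyticAt_snd
  have hfi : ∃ i : (W × P) ≃L[ℂ] (W × P), fderiv ℂ f (w₀, p₀) = i := by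
    obtain ⟨i, hi⟩ := hinv
    set D := fderiv ℂ Ψ (w₀, p₀) with hD
    have hd : fderiv ℂ f (w₀, p₀) = D.prod (ContinuousLinearMap.snd ℂ W P) :=
      (hΨ.differentiableAt.hasFDerivAt.prodMk hasFDerivAt_snd).fderiv
    have hDv : ∀ v w, D (v, w) = i v + D (0, w) := by
      intro v w
      rw [← hi v, ← map_add]
      simp
    refine ⟨ContinuousLinearEquiv.equivOfInverse
      (D.prod (ContinuousLinearMap.snd ℂ W P))
      (((i.symm : W →L[ℂ] W).comp (ContinuousLinearMap.fst ℂ W P -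
        (D.comp (ContinuousLinearMap.inr ℂ W P)).comp
          (ContinuousLinearMap.snd ℂ W P))).prod (ContinuousLinearMap.snd ℂ W P))
      ?_ ?_, ?_⟩
    · rintro ⟨v, w⟩
      simp only [ContinuousLinearMap.prod_apply, ContinuousLinearMap.coe_snd',
        ContinuousLinearMap.comp_apply, sub_apply,
        ContinuousLinearMap.coe_fst', ContinuousLinearMap.inr_apply,
        ContinuousLinearEquiv.coe_coe]
      rw [hDv v w]
      simp
    · rintro ⟨v, w⟩
      simp only [ContinuousLinearMap.prod_apply, ContinuousLinearMap.coe_snd',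
        ContinuousLinearMap.comp_apply, sub_apply,
        ContinuousLinearMap.coe_fst', ContinuousLinearMap.inr_apply,
        ContinuousLinearEquiv.coe_coe]
      rw [hDv]
      simp
    · rw [hd]
      rfl
  obtain ⟨g, hg⟩ := exists_inverse (f := f) (S := {(w₀, p₀)}) isCompact_singleton
    (by simp) (by rintro _ rfl; exact hfa) (by rintro _ rfl; exact hfi)
  obtain ⟨h1, h2, h3⟩ := hg _ rfl
  have hfs : f (w₀, p₀) = (0, p₀) := by
    simp only [hf]
    rw [h0]
  rw [hfs] at h1 h3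
  have hc : Tendsto (fun q : P => ((0 : W), q)) (𝓝 p₀) (𝓝 ((0 : W), p₀)) := by
    exact Continuous.tendsto (by fun_prop) _
  refine ⟨fun q => (g (0, q)).1, ?_, ?_, ?_, ?_⟩
  · have h4 : AnalyticAt ℂ (fun q : P => g ((0 : W), q)) p₀ :=
      AnalyticAt.comp (g := g) (f := fun q : P => ((0 : W), q)) h1
        (analyticAt_const.prod analyticAt_id)
    exact analyticAt_fst.comp h4
  · have h4 := h2.self_of_nhds
    rw [hfs] at h4
    simp only [h4]
  · filter_upwards [hc.eventually h3] with q hq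
    have h4 : (Ψ (g (0, q)), (g (0, q)).2) = ((0 : W), q) := hq
    rw [Prod.mk.injEq] at h4
    have h5 : ((g (0, q)).1, q) = g (0, q) := by
      ext1
      · rfl
      · exact h4.2.symm
    rw [h5]
    exact h4.1
  · filter_upwards [h2] with q hq hq0
    have h4 : f q = (0, q.2) := by simp only [hf, hq0]
    rw [h4] at hq
    rw [hq]

end Implicit

/-- The difference quotient depends analytically on parameters. -/
theorem analyticAt_dslope {P : Type*} [NormedAddCommGroup P] [NormedSpace ℂ P]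
    [FiniteDimensional ℂ P] {h : P × ℂ → ℂ} {p₀ : P} (hh : AnalyticAt ℂ h (p₀, 0)) :
    AnalyticAt ℂ (fun q : P × ℂ => dslope (fun ζ => h (q.1, ζ)) 0 q.2) (p₀, 0) := by
  obtain ⟨ρ, hρ, hb⟩ := Metric.eventually_nhds_iff_ball.1 hh.eventually_analyticAt
  have hd : ∀ p ∈ ball p₀ ρ, ∀ ζ ∈ ball (0 : ℂ) ρ, DifferentiableAt ℂ h (p, ζ) := by
    intro p hp ζ hζ
    refine (hb (p, ζ) ?_).differentiableAt
    rw [← ball_prod_same]
    exact ⟨hp, hζ⟩
  have hds : ∀ p ∈ ball p₀ ρ, DifferentiableOn ℂ (fun ζ => h (p, ζ)) (ball 0 ρ) := by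
    intro p hp ζ hζ
    apply DifferentiableAt.differentiableWithinAt
    exact DifferentiableAt.comp (g := h) ζ (hd p hp ζ hζ) (by fun_prop)
  set G : (P × ℂ) × ℂ → ℂ := fun x => (x.2 - x.1.2)⁻¹ * (x.2⁻¹ * (h (x.1.1, x.2) - h (x.1.1, 0)))
    with hG
  set U : Set (P × ℂ) := ball p₀ ρ ×ˢ ball 0 (ρ / 4) with hU
  have hUo : IsOpen U := isOpen_ball.prod isOpen_ball
  have hWo : IsOpen {ζ : ℂ | ρ / 4 < ‖ζ‖ ∧ ‖ζ‖ < ρ} :=
    (isOpen_lt continuous_const continuous_norm).inter (isOpen_lt continuous_norm continuous_const)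
  have key : DifferentiableOn ℂ (fun q => ∮ ζ in C(0, ρ / 2), G (q, ζ)) U := by
    refine Vale.Agent.P268.differentiableOn_circleIntegral (W := {ζ : ℂ | ρ / 4 < ‖ζ‖ ∧ ‖ζ‖ < ρ})
      (by positivity) hUo hWo ?_ ?_
    · intro ζ hζ
      rw [mem_sphere_zero_iff_norm] at hζ
      constructor <;> rw [hζ] <;> linarith
    · rintro ⟨⟨p, s⟩, ζ⟩ ⟨⟨hp, hs⟩, hζ1, hζ2⟩
      simp only at hp hs hζ1 hζ2
      rw [mem_ball_zero_iff] at hs
      have hζ0 : ζ ≠ 0 := norm_pos_iff.1 (by linarith)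
      have hζs : ζ - s ≠ 0 := by
        intro h
        rw [sub_eq_zero] at h
        rw [h] at hζ1
        linarith
      apply DifferentiableAt.differentiableWithinAt
      have d1 : DifferentiableAt ℂ (fun x : (P × ℂ) × ℂ => (x.2 - x.1.2)⁻¹) ((p, s), ζ) := by
        refine DifferentiableAt.inv (by fun_prop) hζs
      have d2 : DifferentiableAt ℂ (fun x : (P × ℂ) × ℂ => x.2⁻¹) ((p, s), ζ) := by
        refine DifferentiableAt.inv (by fun_prop) hζ0
      have d3 : DifferentiableAt ℂ (fun x : (P × ℂ) × ℂ => h (x.1.1, x.2)) ((p, s), ζ) :=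
        DifferentiableAt.comp (g := h) (f := fun x : (P × ℂ) × ℂ => (x.1.1, x.2)) ((p, s), ζ)
          (hd p hp ζ (by rwa [mem_ball_zero_iff])) (by fun_prop)
      have d4 : DifferentiableAt ℂ (fun x : (P × ℂ) × ℂ => h (x.1.1, 0)) ((p, s), ζ) :=
        DifferentiableAt.comp (g := h) (f := fun x : (P × ℂ) × ℂ => (x.1.1, (0 : ℂ))) ((p, s), ζ)
          (hd p hp 0 (mem_ball_self hρ)) (by fun_prop)
      exact d1.mul (d2.mul (d3.sub d4))
  have hcau : ∀ q ∈ U, dslope (fun ζ => h (q.1, ζ)) 0 q.2 =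
      (2 * Real.pi * Complex.I : ℂ)⁻¹ * ∮ ζ in C(0, ρ / 2), G (q, ζ) := by
    rintro ⟨p, s⟩ ⟨hp, hs⟩
    simp only at hp hs
    have e1 : DifferentiableOn ℂ (dslope (fun ζ => h (p, ζ)) 0) (ball 0 ρ) :=
      (Complex.differentiableOn_dslope (isOpen_ball.mem_nhds (mem_ball_self hρ))).2 (hds p hp)
    have e2 := (e1.mono (closedBall_subset_ball (by linarith : ρ / 2 < ρ))).circleIntegral_sub_inv_smul
      (ball_subset_ball (by linarith : ρ / 4 ≤ ρ / 2) hs)
    have e3 : (∮ ζ in C(0, ρ / 2), G ((p, s), ζ)) =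
        ∮ ζ in C(0, ρ / 2), (ζ - s)⁻¹ • dslope (fun ζ => h (p, ζ)) 0 ζ := by
      refine circleIntegral.integral_congr (by positivity) fun ζ hζ => ?_
      rw [mem_sphere_zero_iff_norm] at hζ
      have hζ0 : ζ ≠ 0 := norm_pos_iff.1 (by rw [hζ]; positivity)
      simp only [hG]
      rw [dslope_of_ne _ hζ0, slope_def_field, sub_zero, smul_eq_mul, div_eq_mul_inv]
      ring
    rw [e3, e2, smul_eq_mul]
    have hpi : (2 * Real.pi * Complex.I : ℂ) ≠ 0 := by simp [Real.pi_ne_zero]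
    field_simp
  have h0U : (p₀, (0 : ℂ)) ∈ U := ⟨mem_ball_self hρ, mem_ball_self (by positivity)⟩
  have h1 : AnalyticAt ℂ (fun q => (2 * Real.pi * Complex.I : ℂ)⁻¹ * ∮ ζ in C(0, ρ / 2), G (q, ζ))
      (p₀, 0) := Vale.Agent.P268.analyticAt_of_differentiableOn hUo (key.const_mul _) h0U
  refine h1.congr ?_
  filter_upwards [hUo.mem_nhds h0U] with q hq
  exact (hcau q hq).symm

section Linear

/-- The bilinear cross product. -/
def cr (x y : V) : V := ![x 1 * y 2 - x 2 * y 1, x 2 * y 0 - x 0 * y 2, x 0 * y 1 - x 1 * y 0]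

/-- The bilinear scalar product. -/
def dt (x y : V) : ℂ := x 0 * y 0 + x 1 * y 1 + x 2 * y 2

/-- The product of a matrix and a vector. -/
def mv (M : Fin 3 → Fin 3 → ℂ) (x : V) : V :=
  fun i => M i 0 * x 0 + M i 1 * x 1 + M i 2 * x 2

@[simp] theorem cr_0 (x y : V) : cr x y 0 = x 1 * y 2 - x 2 * y 1 := rfl
@[simp] theorem cr_1 (x y : V) : cr x y 1 = x 2 * y 0 - x 0 * y 2 := rfl
@[simp] theorem cr_2 (x y : V) : cr x y 2 = x 0 * y 1 - x 1 * y 0 := rfl

theorem ext3 {x y : V} (h0 : x 0 = y 0) (h1 : x 1 = y 1) (h2 : x 2 = y 2) : x = y := by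
  ext i
  fin_cases i
  · exact h0
  · exact h1
  · exact h2

/-- Three vectors with non-zero determinant separate points. -/
theorem eq_zero_of_dt {p q l x : V} (h1 : dt p x = 0) (h2 : dt q x = 0) (h3 : dt l x = 0)
    (h : dt (cr p q) l ≠ 0) : x = 0 := by
  simp only [dt, cr_0, cr_1, cr_2] at h1 h2 h3 h
  apply ext3
  all_goals
    apply mul_left_cancel₀ h
    rw [Pi.zero_apply, mul_zero]
  · linear_combination (q 1 * l 2 - q 2 * l 1) * h1 + (l 1 * p 2 - l 2 * p 1) * h2 +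
      (p 1 * q 2 - p 2 * q 1) * h3
  · linear_combination (q 2 * l 0 - q 0 * l 2) * h1 + (l 2 * p 0 - l 0 * p 2) * h2 +
      (p 2 * q 0 - p 0 * q 2) * h3
  · linear_combination (q 0 * l 1 - q 1 * l 0) * h1 + (l 0 * p 1 - l 1 * p 0) * h2 +
      (p 0 * q 1 - p 1 * q 0) * h3

theorem exists_cr {v a : V} (hv : v ≠ 0) (h : dt v a = 0) : ∃ w, cr v w = a := by
  simp only [dt] at h
  obtain ⟨j, hj⟩ := Function.ne_iff.1 hv
  rw [Pi.zero_apply] at hj
  fin_cases j
  · refine ⟨![0, a 2 / v 0, -a 1 / v 0], ext3 ?_ ?_ ?_⟩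
    all_goals simp only [cr_0, cr_1, cr_2, Matrix.cons_val_zero, Matrix.cons_val_one,
      Matrix.cons_val, Fin.zero_eta] at hj ⊢
    · field_simp
      linear_combination -h
    · field_simp
      ring
    · field_simp
      ring
  · refine ⟨![-a 2 / v 1, 0, a 0 / v 1], ext3 ?_ ?_ ?_⟩
    all_goals simp only [cr_0, cr_1, cr_2, Matrix.cons_val_zero, Matrix.cons_val_one,
      Matrix.cons_val, Fin.mk_one] at hj ⊢
    · field_simp
      ring
    · field_simp
      linear_combination -h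
    · field_simp
      ring
  · refine ⟨![a 1 / v 2, -a 0 / v 2, 0], ext3 ?_ ?_ ?_⟩
    all_goals simp only [cr_0, cr_1, cr_2, Matrix.cons_val_zero, Matrix.cons_val_one,
      Matrix.cons_val, Fin.reduceFinMk] at hj ⊢
    · field_simp
      ring
    · field_simp
      ring
    · field_simp
      linear_combination -h


theorem cr_cr (x v w : V) : cr x (cr v w) = dt x w • v - dt x v • w := by
  apply ext3 <;> simp only [cr_0, cr_1, cr_2, dt, Pi.sub_apply, Pi.smul_apply, smul_eq_mul] <;> ring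

theorem dt_cr_self (x a : V) : dt x (cr x a) = 0 := by
  simp only [dt, cr_0, cr_1, cr_2]; ring

theorem dt_cr_self' (x a : V) : dt a (cr x a) = 0 := by
  simp only [dt, cr_0, cr_1, cr_2]; ring

theorem dt_smul (x y : V) (c : ℂ) : dt x (c • y) = c * dt x y := by
  simp only [dt, Pi.smul_apply, smul_eq_mul]; ring

theorem smul_dt (x y : V) (c : ℂ) : dt (c • x) y = c * dt x y := by
  simp only [dt, Pi.smul_apply, smul_eq_mul]; ring

theorem dt_comm (x y : V) : dt x y = dt y x := by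
  simp only [dt]; ring

theorem mv_symm {M : Fin 3 → Fin 3 → ℂ} (hM : ∀ i j, M i j = M j i) (x y : V) :
    dt (mv M x) y = dt (mv M y) x := by
  simp only [dt, mv]
  rw [hM 1 0, hM 2 0, hM 2 1]
  ring

theorem iso_of_eigen {M : Fin 3 → Fin 3 → ℂ} {a v : V} {c : ℂ} (hc : c ≠ 0)
    (he : cr (mv M v) a = c • v) : dt a v = 0 ∧ dt (mv M v) v = 0 := by
  have h1 := dt_cr_self' (mv M v) a
  have h2 := dt_cr_self (mv M v) a
  rw [he, dt_smul] at h1 h2
  exact ⟨(mul_eq_zero.1 h1).resolve_left hc, (mul_eq_zero.1 h2).resolve_left hc⟩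

theorem exists_node {M : Fin 3 → Fin 3 → ℂ} (hM : ∀ i j, M i j = M j i) {a v : V} {c : ℂ}
    (hc : c ≠ 0) (hv : v ≠ 0) (he : cr (mv M v) a = c • v) :
    ∃ v' l : V, cr (mv M v') a = (-c) • v' ∧ dt l v = 1 ∧ dt l v' = 1 ∧ v ≠ v' ∧
      ∀ w, dt a w = 0 → dt (mv M w) w = 0 → ∃ α : ℂ, w = α • v ∨ w = α • v' := by
  obtain ⟨h1, h2⟩ := iso_of_eigen hc he
  obtain ⟨w, hw⟩ := exists_cr hv ((dt_comm v a).trans h1)
  have ha : a ≠ 0 := by
    rintro rfl
    have h3 : cr (mv M v) 0 = 0 := by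
      apply ext3 <;> simp
    rw [h3] at he
    exact (smul_ne_zero hc hv) he.symm
  have hvw : dt (mv M v) w = c := by
    rw [← hw, cr_cr, h2, zero_smul, sub_zero] at he
    exact smul_left_injective ℂ hv he
  set k := dt (mv M w) w / (2 * c) with hk
  have hkc : 2 * c * k = dt (mv M w) w := by
    rw [hk]
    field_simp
  set v' : V := w - k • v with hv'
  have hvv' : cr v v' = a := by
    rw [← hw, hv']
    apply ext3 <;> simp only [cr_0, cr_1, cr_2, Pi.sub_apply, Pi.smul_apply, smul_eq_mul] <;> ring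
  have hlin : ∀ x : V, dt (mv M v') x = dt (mv M w) x - k * dt (mv M v) x := by
    intro x
    simp only [hv', dt, mv, Pi.sub_apply, Pi.smul_apply, smul_eq_mul]
    ring
  have hMvv' : dt (mv M v) v' = c := by
    rw [mv_symm hM, hlin, mv_symm hM, h2, hvw]
    ring
  have hev' : cr (mv M v') a = (-c) • v' := by
    rw [← hw, cr_cr, hlin, hlin, mv_symm hM w v, h2, hvw]
    apply ext3 <;> simp only [hv', Pi.sub_apply, Pi.smul_apply, smul_eq_mul]
    · linear_combination (-v 0) * hkc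
    · linear_combination (-v 1) * hkc
    · linear_combination (-v 2) * hkc
  have h2' := (iso_of_eigen (neg_ne_zero.2 hc) hev').2
  obtain ⟨j, hj⟩ := Function.ne_iff.1 ha
  rw [Pi.zero_apply] at hj
  set e : V := Pi.single j 1 with he'
  have hD : dt a e = a j := by
    rw [he']
    fin_cases j <;> simp [dt]
  have hl1 : dt (cr v' e + cr e v) v = a j := by
    rw [← hD, ← hvv']
    simp only [dt, cr_0, cr_1, cr_2, Pi.add_apply]
    ring
  have hl2 : dt (cr v' e + cr e v) v' = a j := by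
    rw [← hD, ← hvv']
    simp only [dt, cr_0, cr_1, cr_2, Pi.add_apply]
    ring
  refine ⟨v', (a j)⁻¹ • (cr v' e + cr e v), hev', ?_, ?_, ?_, ?_⟩
  · rw [smul_dt, hl1, inv_mul_cancel₀ hj]
  · rw [smul_dt, hl2, inv_mul_cancel₀ hj]
  · intro h
    rw [← h] at hvv'
    apply ha
    rw [← hvv']
    apply ext3 <;> simp [mul_comm]
  · intro x hx1 hx2
    obtain ⟨α, β, hx⟩ : ∃ α β : ℂ, x = α • v + β • v' := by
      refine ⟨dt (cr x v') e / a j, dt (cr v x) e / a j, ?_⟩
      rw [← hvv'] at hx1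
      have hD' : dt (cr v v') e = a j := by rw [hvv', hD]
      simp only [dt, cr_0, cr_1, cr_2] at hx1 hD'
      apply ext3
      all_goals
        simp only [Pi.add_apply, Pi.smul_apply, smul_eq_mul, dt, cr_0, cr_1, cr_2]
        apply mul_left_cancel₀ hj
      · rw [mul_add, ← mul_assoc, ← mul_assoc, mul_div_cancel₀ _ hj, mul_div_cancel₀ _ hj,
          ← hD']
        linear_combination (e 0) * hx1
      · rw [mul_add, ← mul_assoc, ← mul_assoc, mul_div_cancel₀ _ hj, mul_div_cancel₀ _ hj,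
          ← hD']
        linear_combination (e 1) * hx1
      · rw [mul_add, ← mul_assoc, ← mul_assoc, mul_div_cancel₀ _ hj, mul_div_cancel₀ _ hj,
          ← hD']
        linear_combination (e 2) * hx1
    have hB : dt (mv M x) x = α ^ 2 * dt (mv M v) v + α * β * dt (mv M v) v' +
        β * α * dt (mv M v') v + β ^ 2 * dt (mv M v') v' := by
      rw [hx]
      simp only [dt, mv, Pi.add_apply, Pi.smul_apply, smul_eq_mul]
      ring
    rw [hx2, h2, h2', mv_symm hM v' v, hMvv'] at hB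
    have h5 : α * β = 0 := by
      have : 2 * c * (α * β) = 0 := by linear_combination -hB
      exact (mul_eq_zero.1 this).resolve_left (mul_ne_zero two_ne_zero hc)
    rcases mul_eq_zero.1 h5 with h6 | h6
    · exact ⟨β, Or.inr (by rw [hx, h6, zero_smul, zero_add])⟩
    · exact ⟨α, Or.inl (by rw [hx, h6, zero_smul, add_zero])⟩

end Linear

end Vale.Agent.P298.H652
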