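import Vale.Agent.P268.Hol

/-!
Primitives on an annulus of functions which depend holomorphically on a parameter.
-/

namespace Vale.Agent.P298.H652

open Filter Topology Metric Set MeasureTheory

/-- Differentiation under a circle integral. -/
theorem hasDerivAt_circleIntegral {G G' : ℂ → ℂ → ℂ} {s₀ c : ℂ} {r R : ℝ} (hr : 0 < r)
    (hR : 0 ≤ R) (hG : ∀ s ∈ closedBall s₀ r, ContinuousOn (G s) (sphere c R))
    (hG' : ContinuousOn (fun q : ℂ × ℂ => G' q.1 q.2) (closedBall s₀ r ×ˢ sphere c R))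
    (hd : ∀ s ∈ ball s₀ r, ∀ ζ ∈ sphere c R, HasDerivAt (fun s => G s ζ) (G' s ζ) s) :
    HasDerivAt (fun s => ∮ ζ in C(c, R), G s ζ) (∮ ζ in C(c, R), G' s₀ ζ) s₀ := by
  have hcirc : ∀ θ : ℝ, circleMap c R θ ∈ sphere c R := fun θ => circleMap_mem_sphere c hR θ
  obtain ⟨C, hC⟩ := ((isCompact_closedBall s₀ r).prod
    (isCompact_sphere c R)).exists_bound_of_continuousOn hG'
  have hcd : Continuous (deriv (circleMap c R)) := by
    have : deriv (circleMap c R) = fun θ => circleMap 0 R θ * Complex.I := by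
      ext θ; exact deriv_circleMap c R θ
    rw [this]
    exact (continuous_circleMap 0 R).mul continuous_const
  simp only [circleIntegral]
  refine (intervalIntegral.hasDerivAt_integral_of_dominated_loc_of_deriv_le
    (F := fun (s : ℂ) (θ : ℝ) => deriv (circleMap c R) θ • G s (circleMap c R θ))
    (F' := fun (s : ℂ) (θ : ℝ) => deriv (circleMap c R) θ • G' s (circleMap c R θ))
    (bound := fun _ => |R| * C) (ball_mem_nhds s₀ hr) ?_ ?_ ?_ ?_ ?_ ?_).2
  · filter_upwards [ball_mem_nhds s₀ hr] with s hs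
    apply ContinuousOn.aestronglyMeasurable _ measurableSet_uIoc
    refine hcd.continuousOn.smul ?_
    exact (hG s (ball_subset_closedBall hs)).comp (by fun_prop) fun θ _ => hcirc θ
  · have : Continuous fun θ : ℝ => deriv (circleMap c R) θ • G s₀ (circleMap c R θ) := by
      refine hcd.smul ?_
      exact (hG s₀ (mem_closedBall_self hr.le)).comp_continuous (by fun_prop) hcirc
    exact this.intervalIntegrable _ _
  · apply ContinuousOn.aestronglyMeasurable _ measurableSet_uIoc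
    refine hcd.continuousOn.smul ?_
    refine hG'.comp (f := fun θ : ℝ => (s₀, circleMap c R θ)) (by fun_prop) fun θ _ => ?_
    exact ⟨mem_closedBall_self hr.le, hcirc θ⟩
  · refine Eventually.of_forall fun θ _ s hs => ?_
    rw [norm_smul]
    have h1 : ‖deriv (circleMap c R) θ‖ = |R| := by simp [deriv_circleMap]
    rw [h1]
    exact mul_le_mul_of_nonneg_left (hC (s, circleMap c R θ)
      ⟨ball_subset_closedBall hs, hcirc θ⟩) (abs_nonneg R)
  · exact intervalIntegrable_const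
  · refine Eventually.of_forall fun θ _ s hs => ?_
    exact (hd s hs _ (hcirc θ)).const_mul _

/-- Cauchy's formula in an annulus. -/
theorem cauchy_annulus {f : ℂ → ℂ} {r₁ r₂ : ℝ} (h0 : 0 < r₁) {O : Set ℂ}
    (hO : IsOpen O) (hK : closedBall (0 : ℂ) r₂ \ ball 0 r₁ ⊆ O) (hf : DifferentiableOn ℂ f O)
    {s : ℂ} (hs1 : r₁ < ‖s‖) (hs2 : ‖s‖ < r₂) :
    (∮ ζ in C(0, r₂), f ζ * (ζ - s)⁻¹) - (∮ ζ in C(0, r₁), f ζ * (ζ - s)⁻¹) =
      2 * Real.pi * Complex.I * f s := by
  have hlt : r₁ < r₂ := hs1.trans hs2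
  have hsK : s ∈ closedBall (0 : ℂ) r₂ \ ball 0 r₁ := by
    simp only [Set.mem_sdiff, mem_closedBall, mem_ball, dist_zero_right, not_lt]
    exact ⟨hs2.le, hs1.le⟩
  have hsO : O ∈ 𝓝 s := hO.mem_nhds (hK hsK)
  have hds : ContinuousOn (dslope f s) O :=
    (continuousOn_dslope hsO).2 ⟨hf.continuousOn, hf.differentiableAt hsO⟩
  have h1 := Complex.circleIntegral_eq_of_differentiable_on_annulus_off_countable (c := 0) h0
    hlt.le (f := dslope f s) (s := {s}) (countable_singleton s) (hds.mono hK) (by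
      rintro z ⟨hz, hzs⟩
      have hzO : z ∈ O := hK ⟨ball_subset_closedBall hz.1, fun h => hz.2 (ball_subset_closedBall h)⟩
      exact (differentiableAt_dslope_of_ne hzs).2 (hf.differentiableAt (hO.mem_nhds hzO)))
  have hmem : ∀ r, r₁ ≤ r → r ≤ r₂ → ∀ ζ ∈ sphere (0 : ℂ) r, ζ ∈ O := by
    intro r hr1 hr2 ζ hζ
    rw [mem_sphere_zero_iff_norm] at hζ
    refine hK ⟨?_, ?_⟩
    · rw [mem_closedBall_zero_iff, hζ]; exact hr2
    · rw [mem_ball_zero_iff, hζ]; exact not_lt.2 hr1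
  have h2 : ∀ r, r₁ ≤ r → r ≤ r₂ → 0 < r → r ≠ ‖s‖ → (∮ ζ in C(0, r), dslope f s ζ) =
      (∮ ζ in C(0, r), f ζ * (ζ - s)⁻¹) - f s * ∮ ζ in C(0, r), (ζ - s)⁻¹ := by
    intro r hr1 hr2 hr0 hrs
    have hne : ∀ ζ ∈ sphere (0 : ℂ) r, ζ - s ≠ 0 := by
      intro ζ hζ h
      rw [sub_eq_zero] at h
      rw [mem_sphere_zero_iff_norm] at hζ
      exact hrs (by rw [← hζ, h])
    have hci1 : CircleIntegrable (fun ζ => f ζ * (ζ - s)⁻¹) 0 r := by
      refine ContinuousOn.circleIntegrable hr0.le ?_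
      exact (hf.continuousOn.mono (hmem r hr1 hr2)).mul
        (ContinuousOn.inv₀ (by fun_prop) hne)
    have hci3 : CircleIntegrable (fun ζ => f s * (ζ - s)⁻¹) 0 r := by
      refine ContinuousOn.circleIntegrable hr0.le ?_
      exact continuousOn_const.mul (ContinuousOn.inv₀ (by fun_prop) hne)
    rw [← circleIntegral.integral_const_mul, ← circleIntegral.integral_sub hci1 hci3]
    refine circleIntegral.integral_congr hr0.le fun ζ hζ => ?_
    have hζs : ζ ≠ s := fun h => hne ζ hζ (by rw [h, sub_self])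
    rw [dslope_of_ne _ hζs, slope_def_field]
    rw [div_eq_mul_inv, sub_mul]
  have h3 : (∮ ζ in C(0, r₂), (ζ - s)⁻¹) = 2 * Real.pi * Complex.I :=
    circleIntegral.integral_sub_inv_of_mem_ball (by rwa [mem_ball_zero_iff])
  have h4 : (∮ ζ in C(0, r₁), (ζ - s)⁻¹) = 0 := by
    apply Complex.circleIntegral_eq_zero_of_differentiable_on_off_countable h0.le countable_empty
    · refine ContinuousOn.inv₀ (by fun_prop) ?_
      intro z hz h
      rw [sub_eq_zero] at h
      rw [mem_closedBall_zero_iff, h] at hz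
      linarith
    · rintro z ⟨hz, -⟩
      refine DifferentiableAt.inv (by fun_prop) ?_
      intro h
      rw [sub_eq_zero] at h
      rw [mem_ball_zero_iff, h] at hz
      linarith
  rw [h2 r₂ hlt.le le_rfl (h0.trans hlt) hs2.ne', h2 r₁ le_rfl hlt.le h0 hs1.ne, h3, h4] at h1
  linear_combination h1

/-- The primitive of `b(·, t) - p(t) / s` on an annulus. -/
theorem exists_prim {b : ℂ × ℂ → ℂ} {r₁ r₂ δ : ℝ} (h0 : 0 < r₁) {O : Set ℂ}
    (hO : IsOpen O) (hK : closedBall (0 : ℂ) r₂ \ ball 0 r₁ ⊆ O)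
    (hb : DifferentiableOn ℂ b (O ×ˢ ball 0 δ)) :
    ∃ (A : ℂ × ℂ → ℂ) (p : ℂ → ℂ), DifferentiableOn ℂ p (ball 0 δ) ∧
      (∀ s t, r₁ < ‖s‖ → ‖s‖ < r₂ → t ∈ ball (0 : ℂ) δ → DifferentiableAt ℂ A (s, t)) ∧
      ∀ s t, r₁ < ‖s‖ → ‖s‖ < r₂ → t ∈ ball (0 : ℂ) δ →
        HasDerivAt (fun s => A (s, t)) (b (s, t) - p t / s) s := by
  rcases le_or_gt r₂ r₁ with hle | hlt
  · exact ⟨0, 0, differentiableOn_const 0, fun s t h1 h2 => absurd (h1.trans h2) (not_lt.2 hle),
      fun s t h1 h2 => absurd (h1.trans h2) (not_lt.2 hle)⟩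
  have h02 : 0 < r₂ := h0.trans hlt
  have hmem : ∀ r, r₁ ≤ r → r ≤ r₂ → sphere (0 : ℂ) r ⊆ O := by
    intro r hr1 hr2 ζ hζ
    rw [mem_sphere_zero_iff_norm] at hζ
    refine hK ⟨?_, ?_⟩
    · rw [mem_closedBall_zero_iff, hζ]; exact hr2
    · rw [mem_ball_zero_iff, hζ]; exact not_lt.2 hr1
  -- the kernels
  have hlog2 : ∀ s ζ : ℂ, ‖s‖ < ‖ζ‖ → (1 - s / ζ) ∈ Complex.slitPlane := by
    intro s ζ h
    refine Or.inl ?_
    have hζ : 0 < ‖ζ‖ := (norm_nonneg s).trans_lt h
    have h1 : ‖s / ζ‖ < 1 := by rw [norm_div, div_lt_one hζ]; exact h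
    have h2 := (Complex.re_le_norm (s / ζ)).trans_lt h1
    simp only [Complex.sub_re, Complex.one_re]
    linarith
  set A₂ : ℂ × ℂ → ℂ := fun q => ∮ ζ in C(0, r₂), b (ζ, q.2) * Complex.log (1 - q.1 / ζ) with hA₂
  set A₁ : ℂ × ℂ → ℂ := fun q => ∮ ζ in C(0, r₁), b (ζ, q.2) * Complex.log (1 - ζ / q.1) with hA₁
  have hbt : ∀ t ∈ ball (0 : ℂ) δ, DifferentiableOn ℂ (fun ζ => b (ζ, t)) O := by
    intro t ht
    exact hb.comp (by fun_prop) fun ζ hζ => ⟨hζ, ht⟩
  have hcont : ∀ t ∈ ball (0 : ℂ) δ, ContinuousOn (fun ζ => b (ζ, t)) O := fun t ht =>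
    (hbt t ht).continuousOn
  -- differentiability of the integrals
  have hd2 : ∀ s t, ‖s‖ < r₂ → t ∈ ball (0 : ℂ) δ → DifferentiableAt ℂ A₂ (s, t) := by
    intro s t hs ht
    obtain ⟨ρ, hρ1, hρ2⟩ := exists_between hs
    have h1 := Vale.Agent.P268.differentiableOn_circleIntegral
      (G := fun x : (ℂ × ℂ) × ℂ => b (x.2, x.1.2) * Complex.log (1 - x.1.1 / x.2))
      (U := ball (0 : ℂ) ρ ×ˢ ball (0 : ℂ) δ) (W := O ∩ {ζ | ρ < ‖ζ‖}) (c := 0) h02.le
      (isOpen_ball.prod isOpen_ball) (hO.inter (isOpen_lt continuous_const continuous_norm))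
      (fun ζ hζ => ⟨hmem r₂ hlt.le le_rfl hζ, by
        rw [mem_sphere_zero_iff_norm] at hζ
        simpa [hζ] using hρ2⟩) (by
        rintro ⟨⟨s', t'⟩, ζ⟩ ⟨⟨hs', ht'⟩, hζO, hζ⟩
        simp only [mem_ball_zero_iff] at hs'
        simp only at ht' hζO
        have hζ' : ρ < ‖ζ‖ := hζ
        have hζ0 : ζ ≠ 0 := norm_pos_iff.1 ((norm_nonneg s').trans_lt (hs'.trans hζ'))
        apply DifferentiableAt.differentiableWithinAt
        refine DifferentiableAt.mul ?_ (DifferentiableAt.clog ?_ (hlog2 _ _ (hs'.trans hζ')))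
        · have h2 : DifferentiableAt ℂ b (ζ, t') :=
            hb.differentiableAt ((hO.prod isOpen_ball).mem_nhds ⟨hζO, ht'⟩)
          exact DifferentiableAt.comp (g := b) (f := fun x : (ℂ × ℂ) × ℂ => (x.2, x.1.2))
            ((s', t'), ζ) h2 (by fun_prop)
        · have h3 : DifferentiableAt ℂ (fun x : (ℂ × ℂ) × ℂ => x.1.1 / x.2) ((s', t'), ζ) := by
            fun_prop (disch := exact hζ0)
          exact (differentiableAt_const 1).sub h3)
    exact h1.differentiableAt ((isOpen_ball.prod isOpen_ball).mem_nhds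
      ⟨mem_ball_zero_iff.2 hρ1, ht⟩)
  have hd1 : ∀ s t, r₁ < ‖s‖ → t ∈ ball (0 : ℂ) δ → DifferentiableAt ℂ A₁ (s, t) := by
    intro s t hs ht
    obtain ⟨ρ, hρ1, hρ2⟩ := exists_between hs
    have hUo : IsOpen ({s : ℂ | ρ < ‖s‖} ×ˢ ball (0 : ℂ) δ) :=
      (isOpen_lt continuous_const continuous_norm).prod isOpen_ball
    have h1 := Vale.Agent.P268.differentiableOn_circleIntegral
      (G := fun x : (ℂ × ℂ) × ℂ => b (x.2, x.1.2) * Complex.log (1 - x.2 / x.1.1))
      (U := {s : ℂ | ρ < ‖s‖} ×ˢ ball (0 : ℂ) δ) (W := O ∩ ball 0 ρ) (c := 0) h0.le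
      hUo (hO.inter isOpen_ball)
      (fun ζ hζ => ⟨hmem r₁ le_rfl hlt.le hζ, by
        rw [mem_sphere_zero_iff_norm] at hζ
        rw [mem_ball_zero_iff, hζ]
        exact hρ1⟩) (by
        rintro ⟨⟨s', t'⟩, ζ⟩ ⟨⟨hs', ht'⟩, hζO, hζ⟩
        simp only [mem_ball_zero_iff] at hζ
        simp only at ht' hζO
        have hs'' : ρ < ‖s'‖ := hs'
        have hs0 : s' ≠ 0 := norm_pos_iff.1 ((norm_nonneg ζ).trans_lt (hζ.trans hs''))
        apply DifferentiableAt.differentiableWithinAt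
        refine DifferentiableAt.mul ?_ (DifferentiableAt.clog ?_ (hlog2 _ _ (hζ.trans hs'')))
        · have h2 : DifferentiableAt ℂ b (ζ, t') :=
            hb.differentiableAt ((hO.prod isOpen_ball).mem_nhds ⟨hζO, ht'⟩)
          exact DifferentiableAt.comp (g := b) (f := fun x : (ℂ × ℂ) × ℂ => (x.2, x.1.2))
            ((s', t'), ζ) h2 (by fun_prop)
        · have h3 : DifferentiableAt ℂ (fun x : (ℂ × ℂ) × ℂ => x.2 / x.1.1) ((s', t'), ζ) := by
            fun_prop (disch := exact hs0)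
          exact (differentiableAt_const 1).sub h3)
    exact h1.differentiableAt (hUo.mem_nhds ⟨hρ2, ht⟩)
  -- the residue
  set p : ℂ → ℂ := fun t => (2 * Real.pi * Complex.I)⁻¹ * ∮ ζ in C(0, r₁), b (ζ, t) with hp
  have hpd : DifferentiableOn ℂ p (ball 0 δ) := by
    refine DifferentiableOn.const_mul ?_ _
    refine Vale.Agent.P268.differentiableOn_circleIntegral (G := fun x : ℂ × ℂ => b (x.2, x.1))
      (U := ball (0 : ℂ) δ) (W := O) h0.le isOpen_ball hO (hmem r₁ le_rfl hlt.le) ?_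
    exact hb.comp (by fun_prop) fun x hx => ⟨hx.2, hx.1⟩
  refine ⟨fun q => (2 * Real.pi * Complex.I)⁻¹ * (A₁ q - A₂ q), p, hpd, ?_, ?_⟩
  · intro s t h1 h2 ht
    exact ((hd1 s t h1 ht).sub (hd2 s t h2 ht)).const_mul _
  · intro s t h1 h2 ht
    have hs0 : s ≠ 0 := norm_pos_iff.1 (h0.trans h1)
    -- derivatives of the two integrals
    obtain ⟨ρ, hρ1, hρ2⟩ := exists_between h2
    have e2 : HasDerivAt (fun s => A₂ (s, t)) (∮ ζ in C(0, r₂), -(b (ζ, t) * (ζ - s)⁻¹)) s := by
      refine hasDerivAt_circleIntegral (G := fun s ζ => b (ζ, t) * Complex.log (1 - s / ζ))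
        (G' := fun s ζ => -(b (ζ, t) * (ζ - s)⁻¹)) (r := (r₂ - ‖s‖) / 2) (by linarith) h02.le
        ?_ ?_ ?_
      · intro s' hs'
        have hs2 : ‖s'‖ < r₂ := by
          have h3 : ‖s'‖ ≤ ‖s' - s‖ + ‖s‖ := by simpa using norm_add_le (s' - s) s
          rw [mem_closedBall, dist_eq_norm] at hs'
          linarith
        refine ((hcont t ht).mono (hmem r₂ hlt.le le_rfl)).mul ?_
        refine ContinuousOn.clog ?_ ?_
        · refine continuousOn_const.sub (continuousOn_const.div continuousOn_id ?_)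
          intro ζ hζ h
          rw [mem_sphere_zero_iff_norm] at hζ
          have h' : ζ = 0 := h
          rw [h', norm_zero] at hζ
          linarith
        · intro ζ hζ
          rw [mem_sphere_zero_iff_norm] at hζ
          exact hlog2 _ _ (by rw [hζ]; exact hs2)
      · refine ContinuousOn.neg (ContinuousOn.mul ?_ ?_)
        · exact (hcont t ht).comp continuousOn_snd fun q hq => hmem r₂ hlt.le le_rfl hq.2
        · refine ContinuousOn.inv₀ (by fun_prop) ?_
          rintro ⟨s', ζ⟩ ⟨hs', hζ⟩ h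
          simp only at hs' hζ h
          rw [sub_eq_zero] at h
          rw [mem_sphere_zero_iff_norm, h] at hζ
          have h3 : ‖s'‖ ≤ ‖s' - s‖ + ‖s‖ := by simpa using norm_add_le (s' - s) s
          rw [mem_closedBall, dist_eq_norm] at hs'
          linarith
      · intro s' hs' ζ hζ
        rw [mem_sphere_zero_iff_norm] at hζ
        have hs2 : ‖s'‖ < ‖ζ‖ := by
          have h3 : ‖s'‖ ≤ ‖s' - s‖ + ‖s‖ := by simpa using norm_add_le (s' - s) s
          rw [mem_ball, dist_eq_norm] at hs'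
          linarith
        have hζ0 : ζ ≠ 0 := norm_pos_iff.1 (by rw [hζ]; exact h02)
        have hne : ζ - s' ≠ 0 := by
          intro h
          rw [sub_eq_zero] at h
          rw [h] at hs2
          exact lt_irrefl _ hs2
        have h4 : HasDerivAt (fun s : ℂ => 1 - s / ζ) (-(1 / ζ)) s' := by
          simpa using ((hasDerivAt_id s').div_const ζ).const_sub 1
        have h5 := (h4.clog (hlog2 _ _ hs2)).const_mul (b (ζ, t))
        refine h5.congr_deriv ?_
        have h6 : 1 - s' / ζ ≠ 0 := Complex.slitPlane_ne_zero (hlog2 _ _ hs2)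
        have h7 : 1 - s' / ζ = (ζ - s') / ζ := by field_simp
        rw [h7]
        field_simp
    have e1 : HasDerivAt (fun s => A₁ (s, t))
        (∮ ζ in C(0, r₁), b (ζ, t) * ((s - ζ)⁻¹ - s⁻¹)) s := by
      refine hasDerivAt_circleIntegral (G := fun s ζ => b (ζ, t) * Complex.log (1 - ζ / s))
        (G' := fun s ζ => b (ζ, t) * ((s - ζ)⁻¹ - s⁻¹)) (r := (‖s‖ - r₁) / 2) (by linarith) h0.le
        ?_ ?_ ?_
      · intro s' hs'
        have hs2 : r₁ < ‖s'‖ := by
          have h3 : ‖s‖ ≤ ‖s - s'‖ + ‖s'‖ := by simpa using norm_add_le (s - s') s'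
          rw [mem_closedBall, dist_eq_norm, norm_sub_rev] at hs'
          linarith
        refine ((hcont t ht).mono (hmem r₁ le_rfl hlt.le)).mul ?_
        refine ContinuousOn.clog (by fun_prop) ?_
        intro ζ hζ
        rw [mem_sphere_zero_iff_norm] at hζ
        exact hlog2 _ _ (by rw [hζ]; exact hs2)
      · have hs'n : ∀ s' ∈ closedBall s ((‖s‖ - r₁) / 2), r₁ < ‖s'‖ := by
          intro s' hs'
          have h3 : ‖s‖ ≤ ‖s - s'‖ + ‖s'‖ := by simpa using norm_add_le (s - s') s'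
          rw [mem_closedBall, dist_eq_norm, norm_sub_rev] at hs'
          linarith
        refine ContinuousOn.mul ?_ (ContinuousOn.sub ?_ ?_)
        · exact (hcont t ht).comp continuousOn_snd fun q hq => hmem r₁ le_rfl hlt.le hq.2
        · refine ContinuousOn.inv₀ (by fun_prop) ?_
          rintro ⟨s', ζ⟩ ⟨hs', hζ⟩ h
          simp only at hs' hζ h
          rw [sub_eq_zero] at h
          rw [mem_sphere_zero_iff_norm, ← h] at hζ
          have := hs'n s' hs'
          linarith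
        · refine ContinuousOn.inv₀ (by fun_prop) ?_
          rintro ⟨s', ζ⟩ ⟨hs', hζ⟩ h
          simp only at hs' h
          have := hs'n s' hs'
          rw [h, norm_zero] at this
          linarith
      · intro s' hs' ζ hζ
        rw [mem_sphere_zero_iff_norm] at hζ
        have hs2 : ‖ζ‖ < ‖s'‖ := by
          have h3 : ‖s‖ ≤ ‖s - s'‖ + ‖s'‖ := by simpa using norm_add_le (s - s') s'
          rw [mem_ball, dist_eq_norm, norm_sub_rev] at hs'
          linarith
        have hs'0 : s' ≠ 0 := norm_pos_iff.1 ((norm_nonneg _).trans_lt hs2)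
        have hne : s' - ζ ≠ 0 := by
          intro h
          rw [sub_eq_zero] at h
          rw [h] at hs2
          exact lt_irrefl _ hs2
        have h4 : HasDerivAt (fun s : ℂ => 1 - ζ / s) (ζ / s' ^ 2) s' := by
          have h5 := ((hasDerivAt_inv hs'0).const_mul ζ).const_sub 1
          refine (h5.congr_deriv ?_).congr_of_eventuallyEq ?_
          · rw [div_eq_mul_inv]; ring
          · exact Eventually.of_forall fun z => by simp [div_eq_mul_inv]
        have h5 := (h4.clog (hlog2 _ _ hs2)).const_mul (b (ζ, t))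
        refine h5.congr_deriv ?_
        have h7 : 1 - ζ / s' = (s' - ζ) / s' := by field_simp
        rw [h7]
        field_simp
        ring
    have e3 := (e1.sub e2).const_mul ((2 * Real.pi * Complex.I)⁻¹)
    refine e3.congr_deriv ?_
    have hC := cauchy_annulus h0 hO hK (hbt t ht) h1 h2
    have hpi : (2 * Real.pi * Complex.I : ℂ) ≠ 0 := by
      simp [Real.pi_ne_zero]
    have hci1 : CircleIntegrable (fun ζ => b (ζ, t) * (s - ζ)⁻¹) 0 r₁ := by
      refine ContinuousOn.circleIntegrable h0.le ?_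
      refine ((hcont t ht).mono (hmem r₁ le_rfl hlt.le)).mul (ContinuousOn.inv₀ (by fun_prop) ?_)
      intro ζ hζ h
      rw [sub_eq_zero] at h
      rw [mem_sphere_zero_iff_norm, ← h] at hζ
      linarith
    have hci2 : CircleIntegrable (fun ζ => b (ζ, t) * s⁻¹) 0 r₁ := by
      refine ContinuousOn.circleIntegrable h0.le ?_
      exact ((hcont t ht).mono (hmem r₁ le_rfl hlt.le)).mul continuousOn_const
    have i1 : (∮ ζ in C(0, r₁), b (ζ, t) * ((s - ζ)⁻¹ - s⁻¹)) =
        -(∮ ζ in C(0, r₁), b (ζ, t) * (ζ - s)⁻¹) - (∮ ζ in C(0, r₁), b (ζ, t)) * s⁻¹ := by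
      have j1 : (∮ ζ in C(0, r₁), b (ζ, t) * ((s - ζ)⁻¹ - s⁻¹)) =
          ∮ ζ in C(0, r₁), (b (ζ, t) * (s - ζ)⁻¹ - b (ζ, t) * s⁻¹) := by
        congr 1; ext ζ; ring
      rw [j1, circleIntegral.integral_sub hci1 hci2]
      congr 1
      · have j2 : (fun ζ => b (ζ, t) * (s - ζ)⁻¹) = fun ζ => (-1 : ℂ) • (b (ζ, t) * (ζ - s)⁻¹) := by
          ext ζ
          rw [← neg_sub ζ s, inv_neg]
          simp
        rw [j2, circleIntegral.integral_smul]
        simp
      · have j3 : (fun ζ => b (ζ, t) * s⁻¹) = fun ζ => s⁻¹ • b (ζ, t) := by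
          ext ζ; simp [mul_comm]
        rw [j3, circleIntegral.integral_smul, smul_eq_mul, mul_comm]
    have i2 : (∮ ζ in C(0, r₂), -(b (ζ, t) * (ζ - s)⁻¹)) =
        -(∮ ζ in C(0, r₂), b (ζ, t) * (ζ - s)⁻¹) := by
      have j2 : (fun ζ => -(b (ζ, t) * (ζ - s)⁻¹)) =
          fun ζ => (-1 : ℂ) • (b (ζ, t) * (ζ - s)⁻¹) := by
        ext ζ; simp
      rw [j2, circleIntegral.integral_smul]
      simp
    rw [i1, i2, hp]
    simp only
    rw [sub_eq_iff_eq_add] at hC
    rw [hC]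
    field_simp
    ring

end Vale.Agent.P298.H652
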