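import Mathlib

/-!
The inverse function theorem and the implicit function theorem near a compact set, in the
analytic category.
-/

namespace Vale.Agent.P298.H652

open Filter Topology Metric Set

/-- A tube around a compact set. -/
theorem exists_tube {X : Type*} [TopologicalSpace X] {K : Set X} (hK : IsCompact K)
    {p : X × ℂ → Prop} (h : ∀ s ∈ K, ∀ᶠ q in 𝓝 (s, (0 : ℂ)), p q) :
    ∃ U : Set X, IsOpen U ∧ K ⊆ U ∧ ∃ δ > 0, ∀ s ∈ U, ∀ t ∈ ball (0 : ℂ) δ, p (s, t) := by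
  have h1 : {q | p q} ∈ 𝓝ˢ (K ×ˢ ({0} : Set ℂ)) := by
    rw [mem_nhdsSet_iff_forall]
    rintro ⟨s, t⟩ ⟨hs, ht⟩
    rw [mem_singleton_iff] at ht
    simp only at ht
    subst ht
    exact h s hs
  rw [hK.nhdsSet_prod_eq isCompact_singleton,
    ((hasBasis_nhdsSet _).prod (hasBasis_nhdsSet _)).mem_iff] at h1
  obtain ⟨⟨U, V⟩, ⟨⟨hU, hKU⟩, hV, h0V⟩, hUV⟩ := h1
  obtain ⟨δ, hδ, hb⟩ := Metric.isOpen_iff.1 hV 0 (h0V rfl)
  exact ⟨U, hU, hKU, δ, hδ, fun s hs t ht => hUV ⟨hs, hb ht⟩⟩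

section Inverse

variable {E : Type*} [NormedAddCommGroup E] [NormedSpace ℂ E] [CompleteSpace E]

/-- The inverse function theorem near a compact set. -/
theorem exists_inverse {f : E → E} {S : Set E} (hS : IsCompact S) (hinj : InjOn f S)
    (hf : ∀ x ∈ S, AnalyticAt ℂ f x) (hi : ∀ x ∈ S, ∃ i : E ≃L[ℂ] E, fderiv ℂ f x = i) :
    ∃ g : E → E, ∀ x ∈ S, AnalyticAt ℂ g (f x) ∧ (∀ᶠ z in 𝓝 x, g (f z) = z) ∧
      ∀ᶠ y in 𝓝 (f x), f (g y) = y := by
  classical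
  -- the local homeomorphisms
  have hloc : ∀ x ∈ S, ∃ φ : OpenPartialHomeomorph E E, x ∈ φ.source ∧
      (φ : E → E) = f ∧ AnalyticAt ℂ φ.symm (f x) := by
    intro x hx
    obtain ⟨i, hi⟩ := hi x hx
    have h1 : HasStrictFDerivAt f (i : E →L[ℂ] E) x := hi ▸ (hf x hx).hasStrictFDerivAt
    refine ⟨h1.toOpenPartialHomeomorph f, h1.mem_toOpenPartialHomeomorph_source,
      h1.toOpenPartialHomeomorph_coe, ?_⟩
    exact OpenPartialHomeomorph.analyticAt_symm' (h1.toOpenPartialHomeomorph f)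
      h1.mem_toOpenPartialHomeomorph_source (hf x hx) hi
  have hinj2 : ∀ x ∈ S, ∃ u ∈ 𝓝 x, InjOn f u := by
    intro x hx
    obtain ⟨φ, h1, h2, _⟩ := hloc x hx
    exact ⟨φ.source, φ.open_source.mem_nhds h1, h2 ▸ φ.injOn⟩
  obtain ⟨N, hN, hNi⟩ := hinj.exists_mem_nhdsSet hS (fun x hx => (hf x hx).continuousAt) hinj2
  obtain ⟨N', hN'o, hSN', hN'N⟩ := mem_nhdsSet_iff_exists.1 hN
  have hN'i : InjOn f N' := hNi.mono hN'N
  refine ⟨fun y => if h : ∃ x ∈ N', f x = y then h.choose else y, ?_⟩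
  set g : E → E := fun y => if h : ∃ x ∈ N', f x = y then h.choose else y with hg
  have hgf : ∀ x ∈ N', g (f x) = x := by
    intro x hx
    have h : ∃ x' ∈ N', f x' = f x := ⟨x, hx, rfl⟩
    simp only [hg, dif_pos h]
    exact hN'i h.choose_spec.1 hx h.choose_spec.2
  intro x hx
  obtain ⟨φ, h1, h2, h3⟩ := hloc x hx
  have hxt : f x ∈ φ.target := h2 ▸ φ.map_source h1
  have hsx : φ.symm (f x) = x := by
    have := φ.left_inv h1
    rwa [h2] at this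
  have h4 : ∀ᶠ y in 𝓝 (f x), y ∈ φ.target ∧ φ.symm y ∈ N' := by
    have h41 : ∀ᶠ y in 𝓝 (f x), y ∈ φ.target := φ.open_target.mem_nhds hxt
    have h42 : ∀ᶠ y in 𝓝 (f x), φ.symm y ∈ N' := by
      refine h3.continuousAt.preimage_mem_nhds ?_
      rw [hsx]
      exact hN'o.mem_nhds (hSN' hx)
    exact h41.and h42
  have h5 : ∀ᶠ y in 𝓝 (f x), g y = φ.symm y ∧ f (g y) = y := by
    filter_upwards [h4] with y hy
    have h6 : f (φ.symm y) = y := by
      have := φ.right_inv hy.1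
      rwa [h2] at this
    have h7 : g y = φ.symm y := by
      conv_lhs => rw [← h6]
      exact hgf _ hy.2
    exact ⟨h7, by rw [h7, h6]⟩
  refine ⟨?_, ?_, h5.mono fun y hy => hy.2⟩
  · exact h3.congr (h5.mono fun y hy => hy.1.symm)
  · filter_upwards [hN'o.mem_nhds (hSN' hx)] with z hz using hgf z hz

end Inverse

section Implicit

variable {W : Type*} [NormedAddCommGroup W] [NormedSpace ℂ W] [CompleteSpace W]

/-- The implicit function theorem near a compact set. -/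
theorem exists_implicit {K : Set ℂ} (hK : IsCompact K) {x₀ : ℂ → W} {Ψ : W × (ℂ × ℂ) → W}
    (hx₀ : ∀ s ∈ K, AnalyticAt ℂ x₀ s) (hΨ : ∀ s ∈ K, AnalyticAt ℂ Ψ (x₀ s, (s, 0)))
    (h0 : ∀ s ∈ K, ∀ᶠ z in 𝓝 s, Ψ (x₀ z, (z, 0)) = 0)
    (hinv : ∀ s ∈ K, ∃ i : W ≃L[ℂ] W, ∀ v, fderiv ℂ Ψ (x₀ s, (s, 0)) (v, 0) = i v) :
    ∃ X : ℂ × ℂ → W, ∀ s ∈ K, AnalyticAt ℂ X (s, 0) ∧ (∀ᶠ q in 𝓝 (s, (0 : ℂ)), Ψ (X q, q) = 0) ∧
      (∀ᶠ z in 𝓝 s, X (z, 0) = x₀ z) := by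
  set f : W × (ℂ × ℂ) → W × (ℂ × ℂ) := fun p => (Ψ p, p.2) with hf
  set S : Set (W × (ℂ × ℂ)) := (fun s : ℂ => (x₀ s, (s, (0 : ℂ)))) '' K with hS
  have hSc : IsCompact S := by
    refine hK.image_of_continuousOn fun s hs => ContinuousAt.continuousWithinAt ?_
    exact (hx₀ s hs).continuousAt.prodMk (by fun_prop)
  have hinj : InjOn f S := by
    rintro _ ⟨s, hs, rfl⟩ _ ⟨s', hs', rfl⟩ h
    simp only [hf, Prod.mk.injEq] at h
    obtain ⟨_, rfl, _⟩ := h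
    rfl
  have hfa : ∀ p ∈ S, AnalyticAt ℂ f p := by
    rintro _ ⟨s, hs, rfl⟩
    exact (hΨ s hs).prod (analyticAt_snd)
  have hfi : ∀ p ∈ S, ∃ i : (W × (ℂ × ℂ)) ≃L[ℂ] (W × (ℂ × ℂ)), fderiv ℂ f p = i := by
    rintro _ ⟨s, hs, rfl⟩
    obtain ⟨i, hi⟩ := hinv s hs
    set D := fderiv ℂ Ψ (x₀ s, (s, 0)) with hD
    have hd : fderiv ℂ f (x₀ s, (s, 0)) = D.prod (ContinuousLinearMap.snd ℂ W (ℂ × ℂ)) := by
      exact ((hΨ s hs).differentiableAt.hasFDerivAt.prodMk hasFDerivAt_snd).fderiv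
    have hDv : ∀ v w, D (v, w) = i v + D (0, w) := by
      intro v w
      rw [← hi v, ← map_add]
      simp
    refine ⟨ContinuousLinearEquiv.equivOfInverse
      (D.prod (ContinuousLinearMap.snd ℂ W (ℂ × ℂ)))
      (((i.symm : W →L[ℂ] W).comp (ContinuousLinearMap.fst ℂ W (ℂ × ℂ) -
        (D.comp (ContinuousLinearMap.inr ℂ W (ℂ × ℂ))).comp
          (ContinuousLinearMap.snd ℂ W (ℂ × ℂ)))).prod (ContinuousLinearMap.snd ℂ W (ℂ × ℂ)))
      ?_ ?_, ?_⟩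
    · rintro ⟨v, w⟩
      simp only [ContinuousLinearMap.prod_apply, ContinuousLinearMap.coe_snd',
        ContinuousLinearMap.comp_apply, sub_apply,
        ContinuousLinearMap.coe_fst', ContinuousLinearMap.inr_apply,
        ContinuousLinearEquiv.coe_coe]
      rw [hDv v w]
      simp
    · rintro ⟨v, w⟩
      simp only [ContinuousLinearMap.prod_apply, ContinuousLinearMap.coe_snd',
        ContinuousLinearMap.comp_apply, sub_apply,
        ContinuousLinearMap.coe_fst', ContinuousLinearMap.inr_apply,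
        ContinuousLinearEquiv.coe_coe]
      rw [hDv]
      simp
    · rw [hd]
      rfl
  obtain ⟨g, hg⟩ := exists_inverse hSc hinj hfa hfi
  refine ⟨fun q => (g (0, q)).1, fun s hs => ?_⟩
  obtain ⟨h1, h2, h3⟩ := hg _ ⟨s, hs, rfl⟩
  have hfs : f (x₀ s, (s, 0)) = (0, (s, 0)) := by
    simp only [hf]
    rw [(h0 s hs).self_of_nhds]
  rw [hfs] at h1 h3
  have hc : Tendsto (fun q : ℂ × ℂ => ((0 : W), q)) (𝓝 (s, 0)) (𝓝 ((0 : W), (s, 0))) := by
    exact Continuous.tendsto (by fun_prop) _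
  refine ⟨?_, ?_, ?_⟩
  · have h4 : AnalyticAt ℂ (fun q : ℂ × ℂ => g ((0 : W), q)) (s, 0) :=
      AnalyticAt.comp (g := g) (f := fun q : ℂ × ℂ => ((0 : W), q)) h1
        (analyticAt_const.prod analyticAt_id)
    exact analyticAt_fst.comp h4
  · filter_upwards [hc.eventually h3] with q hq
    have h4 : (Ψ (g (0, q)), (g (0, q)).2) = ((0 : W), q) := hq
    rw [Prod.mk.injEq] at h4
    have h5 : ((g (0, q)).1, q) = g (0, q) := by
      ext1
      · rfl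
      · exact h4.2.symm
    rw [h5]
    exact h4.1
  · have hc2 : Tendsto (fun z : ℂ => (x₀ z, (z, (0 : ℂ)))) (𝓝 s) (𝓝 (x₀ s, (s, (0 : ℂ)))) :=
      ((hx₀ s hs).continuousAt.prodMk (by fun_prop : ContinuousAt (fun z : ℂ => (z, (0 : ℂ))) s))
    filter_upwards [hc2.eventually h2, h0 s hs] with z hz hz0
    have h4 : f (x₀ z, (z, 0)) = (0, (z, 0)) := by simp only [hf, hz0]
    rw [h4] at hz
    rw [hz]

end Implicit

end Vale.Agent.P298.H652
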