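import Vale.Agent.P298.H462.Defs
import Vale.Agent.P298.H652.UIF
import Vale.Agent.P298.H652.Prim

/-!
Parametrization of the curves `f_t = e_t = 0` over an annulus.
-/

namespace Vale.Agent.P298.H652

open Filter Topology Metric Set Vale.Agent.P298 Vale.Agent.P298.H462

section pd

variable {F : V → ℂ → ℂ}

theorem pd_eq {x : V} {t : ℂ} (hF : AnalyticAt ℂ (fun p : V × ℂ => F p.1 p.2) (x, t)) (i : Fin 3) :
    pd i (F · t) x = fderiv ℂ (fun p : V × ℂ => F p.1 p.2) (x, t) (Pi.single i 1, 0) := by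
  have h1 : HasFDerivAt (fun x : V => (x, t)) (ContinuousLinearMap.inl ℂ V ℂ) x :=
    hasFDerivAt_prodMk_left x t
  have h2 := hF.differentiableAt.hasFDerivAt.comp x h1
  have h3 : fderiv ℂ (F · t) x =
      (fderiv ℂ (fun p : V × ℂ => F p.1 p.2) (x, t)).comp (ContinuousLinearMap.inl ℂ V ℂ) :=
    h2.fderiv
  simp only [pd]
  rw [h3]
  simp

theorem pd_analytic {p : V × ℂ} (hF : AnalyticAt ℂ (fun p : V × ℂ => F p.1 p.2) p) (i : Fin 3) :
    AnalyticAt ℂ (fun p : V × ℂ => pd i (F · p.2) p.1) p := by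
  have h1 : AnalyticAt ℂ (fun p : V × ℂ => fderiv ℂ (fun p : V × ℂ => F p.1 p.2) p
      (Pi.single i 1, 0)) p :=
    ((ContinuousLinearMap.apply ℂ ℂ ((Pi.single i 1, 0) : V × ℂ)).analyticAt _).comp hF.fderiv
  refine h1.congr ?_
  filter_upwards [hF.eventually_analyticAt] with q hq
  exact (pd_eq (x := q.1) (t := q.2) hq i).symm

theorem fderiv_eq {x : V} {t : ℂ} (hF : AnalyticAt ℂ (fun p : V × ℂ => F p.1 p.2) (x, t)) (v : V) :
    fderiv ℂ (fun p : V × ℂ => F p.1 p.2) (x, t) (v, 0) = ∑ i, v i * pd i (F · t) x := by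
  have h1 : v = ∑ i, v i • (Pi.single i 1 : V) := by
    ext j
    simp [Finset.sum_apply, Pi.single_apply]
  have h2 : (v, (0 : ℂ)) = ∑ i, v i • ((Pi.single i 1 : V), (0 : ℂ)) := by
    rw [Prod.ext_iff]
    refine ⟨?_, ?_⟩
    · rw [Prod.fst_sum]
      exact h1
    · rw [Prod.snd_sum]
      simp
  rw [h2, map_sum]
  refine Finset.sum_congr rfl fun i _ => ?_
  rw [map_smul, pd_eq hF i, smul_eq_mul]

theorem xi_analytic {E : V → ℂ → ℂ} {p : V × ℂ}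
    (hF : AnalyticAt ℂ (fun p : V × ℂ => F p.1 p.2) p)
    (hE : AnalyticAt ℂ (fun p : V × ℂ => E p.1 p.2) p) :
    AnalyticAt ℂ (fun p : V × ℂ => xi (F · p.2) (E · p.2) p.1) p := by
  have hm : ∀ i j : Fin 3, AnalyticAt ℂ (fun p : V × ℂ => minor2 i j (F · p.2) (E · p.2) p.1) p :=
    fun i j => ((pd_analytic hF i).mul (pd_analytic hE j)).sub
      ((pd_analytic hF j).mul (pd_analytic hE i))
  rw [analyticAt_pi_iff]
  intro i
  fin_cases i
  · exact hm 1 2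
  · exact (hm 0 2).neg
  · exact hm 0 1

end pd

/-- A vector in the kernel of the differentials of `f` and `e` is proportional to `ξ`. -/
theorem smul_xi {f e : V → ℂ} {x v : V} (h1 : ∑ i, v i * pd i f x = 0)
    (h2 : ∑ i, v i * pd i e x = 0) (k : Fin 3) : v k • xi f e x = xi f e x k • v := by
  simp only [Fin.sum_univ_three] at h1 h2
  have e0 : xi f e x 0 = pd 1 f x * pd 2 e x - pd 2 f x * pd 1 e x := rfl
  have e1 : xi f e x 1 = -(pd 0 f x * pd 2 e x - pd 2 f x * pd 0 e x) := rfl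
  have e2 : xi f e x 2 = pd 0 f x * pd 1 e x - pd 1 f x * pd 0 e x := rfl
  ext j
  fin_cases k <;> fin_cases j <;>
    simp only [Pi.smul_apply, smul_eq_mul, Fin.zero_eta, Fin.mk_one, Fin.reduceFinMk, e0, e1, e2]
  · ring
  · linear_combination (pd 2 f x) * h2 - (pd 2 e x) * h1
  · linear_combination (pd 1 e x) * h1 - (pd 1 f x) * h2
  · linear_combination (pd 2 e x) * h1 - (pd 2 f x) * h2
  · ring
  · linear_combination (pd 0 f x) * h2 - (pd 0 e x) * h1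
  · linear_combination (pd 1 f x) * h2 - (pd 1 e x) * h1
  · linear_combination (pd 0 e x) * h1 - (pd 0 f x) * h2
  · ring


/-- The system of equations for the points of the curve with given coordinate `x_k`. -/
noncomputable def Psi (F E : V → ℂ → ℂ) (g : ℂ → ℂ) (k : Fin 3) (p : V × (ℂ × ℂ)) : V :=
  ![F p.1 p.2.2, E p.1 p.2.2, p.1 k - g p.2.1]

theorem psi_analytic {F E : V → ℂ → ℂ} {g : ℂ → ℂ} {k : Fin 3} {x : V} {s t : ℂ}
    (hF : AnalyticAt ℂ (fun p : V × ℂ => F p.1 p.2) (x, t))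
    (hE : AnalyticAt ℂ (fun p : V × ℂ => E p.1 p.2) (x, t)) (hg : AnalyticAt ℂ g s) :
    AnalyticAt ℂ (Psi F E g k) (x, (s, t)) := by
  have hs : AnalyticAt ℂ (fun p : V × (ℂ × ℂ) => p.2.1) (x, (s, t)) :=
    ((ContinuousLinearMap.fst ℂ ℂ ℂ).comp (ContinuousLinearMap.snd ℂ V (ℂ × ℂ))).analyticAt _
  have hp : AnalyticAt ℂ (fun p : V × (ℂ × ℂ) => (p.1, p.2.2)) (x, (s, t)) :=
    ((ContinuousLinearMap.fst ℂ V (ℂ × ℂ)).prod
        ((ContinuousLinearMap.snd ℂ ℂ ℂ).comp (ContinuousLinearMap.snd ℂ V (ℂ × ℂ)))).analyticAt _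
  rw [analyticAt_pi_iff]
  intro i
  fin_cases i
  · exact AnalyticAt.comp (g := fun p : V × ℂ => F p.1 p.2)
      (f := fun p : V × (ℂ × ℂ) => (p.1, p.2.2)) hF hp
  · exact AnalyticAt.comp (g := fun p : V × ℂ => E p.1 p.2)
      (f := fun p : V × (ℂ × ℂ) => (p.1, p.2.2)) hE hp
  · have h1 : AnalyticAt ℂ (fun p : V × (ℂ × ℂ) => p.1 k) (x, (s, t)) := by
      exact ((ContinuousLinearMap.proj (R := ℂ) k).comp
        (ContinuousLinearMap.fst ℂ V (ℂ × ℂ))).analyticAt _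
    have h2 : AnalyticAt ℂ (fun p : V × (ℂ × ℂ) => g p.2.1) (x, (s, t)) :=
      AnalyticAt.comp (g := g) (f := fun p : V × (ℂ × ℂ) => p.2.1) hg hs
    exact h1.sub h2

theorem psi_fderiv {F E : V → ℂ → ℂ} {g : ℂ → ℂ} {k : Fin 3} {x : V} {s t : ℂ}
    (hF : AnalyticAt ℂ (fun p : V × ℂ => F p.1 p.2) (x, t))
    (hE : AnalyticAt ℂ (fun p : V × ℂ => E p.1 p.2) (x, t)) (hg : AnalyticAt ℂ g s) (v : V) :
    fderiv ℂ (Psi F E g k) (x, (s, t)) (v, 0) =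
      ![∑ i, v i * pd i (F · t) x, ∑ i, v i * pd i (E · t) x, v k] := by
  have hd := (psi_analytic (k := k) hF hE hg).differentiableAt
  have hp : HasFDerivAt (fun p : V × (ℂ × ℂ) => (p.1, p.2.2))
      ((ContinuousLinearMap.fst ℂ V (ℂ × ℂ)).prod
        ((ContinuousLinearMap.snd ℂ ℂ ℂ).comp (ContinuousLinearMap.snd ℂ V (ℂ × ℂ))))
      (x, (s, t)) :=
    hasFDerivAt_fst.prodMk (hasFDerivAt_snd.comp _ hasFDerivAt_snd)
  have hcoord : ∀ i, fderiv ℂ (Psi F E g k) (x, (s, t)) (v, 0) i =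
      fderiv ℂ (fun p => Psi F E g k p i) (x, (s, t)) (v, 0) := by
    intro i
    rw [fderiv_pi (fun i => (hasFDerivAt_pi'.1 hd.hasFDerivAt i).differentiableAt)]
    rfl
  ext i
  rw [hcoord i]
  fin_cases i
  · have h1 : HasFDerivAt (fun p : V × (ℂ × ℂ) => F p.1 p.2.2) _ (x, (s, t)) :=
      HasFDerivAt.comp (g := fun p : V × ℂ => F p.1 p.2) (x, (s, t))
        hF.differentiableAt.hasFDerivAt hp
    have h2 : fderiv ℂ (fun p => Psi F E g k p 0) (x, (s, t)) = _ := h1.fderiv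
    simp only [Fin.zero_eta]
    rw [h2]
    simp only [ContinuousLinearMap.comp_apply, ContinuousLinearMap.prod_apply,
      ContinuousLinearMap.coe_fst', ContinuousLinearMap.coe_snd', Prod.snd_zero]
    exact fderiv_eq hF v
  · have h1 : HasFDerivAt (fun p : V × (ℂ × ℂ) => E p.1 p.2.2) _ (x, (s, t)) :=
      HasFDerivAt.comp (g := fun p : V × ℂ => E p.1 p.2) (x, (s, t))
        hE.differentiableAt.hasFDerivAt hp
    have h2 : fderiv ℂ (fun p => Psi F E g k p 1) (x, (s, t)) = _ := h1.fderiv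
    simp only [Fin.mk_one]
    rw [h2]
    simp only [ContinuousLinearMap.comp_apply, ContinuousLinearMap.prod_apply,
      ContinuousLinearMap.coe_fst', ContinuousLinearMap.coe_snd', Prod.snd_zero]
    exact fderiv_eq hE v
  · have h1 : HasFDerivAt (fun p : V × (ℂ × ℂ) => p.1 k)
        ((ContinuousLinearMap.proj (R := ℂ) k).comp (ContinuousLinearMap.fst ℂ V (ℂ × ℂ)))
        (x, (s, t)) :=
      ((ContinuousLinearMap.proj (R := ℂ) k).comp
        (ContinuousLinearMap.fst ℂ V (ℂ × ℂ))).hasFDerivAt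
    have h2 : HasFDerivAt (fun p : V × (ℂ × ℂ) => g p.2.1) _ (x, (s, t)) :=
      HasFDerivAt.comp (g := g) (x, (s, t)) (f := fun p : V × (ℂ × ℂ) => p.2.1)
        hg.differentiableAt.hasFDerivAt (hasFDerivAt_fst.comp _ hasFDerivAt_snd)
    have h3 : fderiv ℂ (fun p => Psi F E g k p 2) (x, (s, t)) = _ := (h1.sub h2).fderiv
    simp only [Fin.reduceFinMk]
    rw [h3]
    simp


theorem exists_equiv {f e : V → ℂ} {x : V} {k : Fin 3} (hk : xi f e x k ≠ 0) :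
    ∃ i : V ≃L[ℂ] V, ∀ v, ![∑ i, v i * pd i f x, ∑ i, v i * pd i e x, v k] = i v := by
  set L : V →ₗ[ℂ] V :=
    { toFun := fun v => ![∑ i, v i * pd i f x, ∑ i, v i * pd i e x, v k]
      map_add' := by
        intro v w
        ext i
        fin_cases i <;> simp [Finset.sum_add_distrib, add_mul]
      map_smul' := by
        intro c v
        ext i
        fin_cases i <;> simp [Finset.mul_sum, mul_assoc] } with hL
  have hinj : Function.Injective L := by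
    rw [← LinearMap.ker_eq_bot, LinearMap.ker_eq_bot']
    intro v hv
    have h0 : ∑ i, v i * pd i f x = 0 := congrFun hv 0
    have h1 : ∑ i, v i * pd i e x = 0 := congrFun hv 1
    have h2 : v k = 0 := congrFun hv 2
    have h3 := smul_xi h0 h1 k
    rw [h2, zero_smul] at h3
    exact (smul_eq_zero.1 h3.symm).resolve_left hk
  refine ⟨(LinearEquiv.ofInjectiveEndo L hinj).toContinuousLinearEquiv, fun v => ?_⟩
  simp only [LinearEquiv.coe_toContinuousLinearEquiv', LinearEquiv.coe_ofInjectiveEndo]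
  rfl

/-- The derivative of an analytic arc in the curve is a multiple of `ξ`. -/
theorem deriv_arc {F E : V → ℂ → ℂ} {t : ℂ} {β : ℂ → V} {s : ℂ} (k : Fin 3)
    (hF : AnalyticAt ℂ (fun p : V × ℂ => F p.1 p.2) (β s, t))
    (hE : AnalyticAt ℂ (fun p : V × ℂ => E p.1 p.2) (β s, t)) {v : V}
    (hβ : HasDerivAt β v s) (h1 : ∀ᶠ z in 𝓝 s, F (β z) t = 0)
    (h2 : ∀ᶠ z in 𝓝 s, E (β z) t = 0) (hk : xi (F · t) (E · t) (β s) k ≠ 0) :
    v = (v k / xi (F · t) (E · t) (β s) k) • xi (F · t) (E · t) (β s) := by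
  have key : ∀ {G : V → ℂ → ℂ} (_ : AnalyticAt ℂ (fun p : V × ℂ => G p.1 p.2) (β s, t))
      (_ : ∀ᶠ z in 𝓝 s, G (β z) t = 0), ∑ i, v i * pd i (G · t) (β s) = 0 := by
    intro G hG hz
    have h3 : HasDerivAt (fun z => (β z, t)) (v, (0 : ℂ)) s := hβ.prodMk (hasDerivAt_const s t)
    have h4 : HasDerivAt (fun z => G (β z) t) _ s :=
      HasFDerivAt.comp_hasDerivAt (l := fun p : V × ℂ => G p.1 p.2) s
        hG.differentiableAt.hasFDerivAt h3
    have h5 : HasDerivAt (fun z => G (β z) t) 0 s :=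
      (hasDerivAt_const s (0 : ℂ)).congr_of_eventuallyEq hz
    rw [← fderiv_eq hG v]
    exact h4.unique h5
  have h3 := smul_xi (key hF h1) (key hE h2) k
  rw [div_eq_inv_mul, mul_smul, h3, smul_smul, inv_mul_cancel₀ hk, one_smul]

/-- The choice of the coordinate. -/
theorem exists_coord {γ : ℂ → V} {R : ℝ} (hR : 0 < R)
    (hγ : ∀ s ∈ ball (0 : ℂ) R, AnalyticAt ℂ γ s ∧ (s ≠ 0 → γ s ≠ 0)) (h0 : γ 0 = 0) :
    ∃ k : Fin 3, ∃ R₁ > 0, R₁ ≤ R ∧ ∀ s : ℂ, 0 < ‖s‖ → ‖s‖ < R₁ → deriv (fun z => γ z k) s ≠ 0 := by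
  have ha : ∀ k, ∀ s ∈ ball (0 : ℂ) R, AnalyticAt ℂ (fun z => γ z k) s := fun k s hs =>
    (analyticAt_pi_iff.1 (hγ s hs).1) k
  have h0R : (0 : ℂ) ∈ ball (0 : ℂ) R := mem_ball_self hR
  by_cases h : ∃ k, ¬ ∀ᶠ z in 𝓝 (0 : ℂ), deriv (fun z => γ z k) z = 0
  · obtain ⟨k, hk⟩ := h
    have h1 := ((ha k 0 h0R).deriv.eventually_eq_zero_or_eventually_ne_zero).resolve_left hk
    rw [eventually_nhdsWithin_iff] at h1
    obtain ⟨ε, hε, h2⟩ := Metric.eventually_nhds_iff.1 h1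
    refine ⟨k, min ε R, lt_min hε hR, min_le_right _ _, fun s hs hs2 => ?_⟩
    exact h2 (by rw [dist_zero_right]; exact lt_of_lt_of_le hs2 (min_le_left _ _))
      (norm_pos_iff.1 hs)
  · exfalso
    push Not at h
    obtain ⟨ε, hε, h2⟩ := Metric.eventually_nhds_iff.1 (eventually_all.2 h)
    set ρ := min ε R with hρ
    have hρ0 : 0 < ρ := lt_min hε hR
    have hmem : (((ρ / 2 : ℝ) : ℂ)) ∈ ball (0 : ℂ) ρ := by
      rw [mem_ball_zero_iff, Complex.norm_real, Real.norm_of_nonneg (by positivity)]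
      linarith
    have hsub : ball (0 : ℂ) ρ ⊆ ball 0 R := ball_subset_ball (min_le_right _ _)
    have h3 : γ ((ρ / 2 : ℝ) : ℂ) = γ 0 := by
      ext k
      refine isOpen_ball.is_const_of_deriv_eq_zero (convex_ball (0 : ℂ) ρ).isPreconnected
        (f := fun z => γ z k) (fun z hz => (ha k z (hsub hz)).differentiableAt.differentiableWithinAt)
        (fun z hz => ?_) hmem (mem_ball_self hρ0)
      refine h2 ?_ k
      rw [dist_zero_right]
      rw [mem_ball_zero_iff] at hz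
      exact lt_of_lt_of_le hz (min_le_left _ _)
    refine (hγ _ (hsub hmem)).2 ?_ (h3.trans h0)
    rw [Complex.ofReal_ne_zero]
    positivity


/-- The family of parametrized curves with given coordinate `x_k`, near a compact set. -/
theorem exists_beta {F E : V → ℂ → ℂ} {ρ₀ δ₀ : ℝ} (hFE : Fam F E ρ₀ δ₀) {γ : ℂ → V} {k : Fin 3}
    {K : Set ℂ} (hK : IsCompact K)
    (hγ : ∀ s ∈ K, AnalyticAt ℂ γ s ∧ γ s ∈ ball (0 : V) ρ₀ ∧
      (∀ᶠ z in 𝓝 s, F (γ z) 0 = 0 ∧ E (γ z) 0 = 0) ∧ xi (F · 0) (E · 0) (γ s) k ≠ 0) :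
    ∃ β : ℂ × ℂ → V, (∀ s ∈ K, β (s, 0) = γ s) ∧ ∃ O : Set ℂ, IsOpen O ∧ K ⊆ O ∧
      ∃ δ > 0, δ ≤ δ₀ ∧ ∀ s ∈ O, ∀ t ∈ ball (0 : ℂ) δ, AnalyticAt ℂ β (s, t) ∧
        AnalyticAt ℂ γ s ∧ β (s, t) ∈ ball (0 : V) ρ₀ ∧ F (β (s, t)) t = 0 ∧ E (β (s, t)) t = 0 ∧
        xi (F · t) (E · t) (β (s, t)) k ≠ 0 ∧
        HasDerivAt (fun z => β (z, t))
          ((deriv (fun z => γ z k) s / xi (F · t) (E · t) (β (s, t)) k) •
            xi (F · t) (E · t) (β (s, t))) s := by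
  have h0δ : (0 : ℂ) ∈ ball (0 : ℂ) δ₀ := mem_ball_self hFE.dpos
  have hg : ∀ s ∈ K, AnalyticAt ℂ (fun z => γ z k) s := fun s hs =>
    (analyticAt_pi_iff.1 (hγ s hs).1) k
  obtain ⟨β, hβ⟩ := exists_implicit hK (x₀ := γ) (Ψ := Psi F E (fun z => γ z k) k)
    (fun s hs => (hγ s hs).1)
    (fun s hs => psi_analytic (hFE.holF _ (hγ s hs).2.1 0 h0δ) (hFE.holE _ (hγ s hs).2.1 0 h0δ)
      (hg s hs))
    (fun s hs => by
      filter_upwards [(hγ s hs).2.2.1] with z hz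
      ext i
      fin_cases i
      · exact hz.1
      · exact hz.2
      · simp [Psi])
    (fun s hs => by
      obtain ⟨i, hi⟩ := exists_equiv (hγ s hs).2.2.2
      refine ⟨i, fun v => ?_⟩
      rw [psi_fderiv (hFE.holF _ (hγ s hs).2.1 0 h0δ) (hFE.holE _ (hγ s hs).2.1 0 h0δ)
        (hg s hs) v, hi v])
  have hβ0 : ∀ s ∈ K, β (s, 0) = γ s := fun s hs => (hβ s hs).2.2.self_of_nhds
  refine ⟨β, hβ0, ?_⟩
  obtain ⟨O, hO, hKO, δ, hδ, h⟩ := exists_tube hK (p := fun q : ℂ × ℂ =>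
      (AnalyticAt ℂ β q ∧ Psi F E (fun z => γ z k) k (β q, q) = 0) ∧ AnalyticAt ℂ γ q.1 ∧
      β q ∈ ball (0 : V) ρ₀ ∧ xi (F · q.2) (E · q.2) (β q) k ≠ 0) (by
    intro s hs
    obtain ⟨h1, h2, h3⟩ := hβ s hs
    obtain ⟨g1, g2, g3, g4⟩ := hγ s hs
    have c1 : Tendsto β (𝓝 (s, 0)) (𝓝 (γ s)) := by
      have := h1.continuousAt.tendsto
      rwa [hβ0 s hs] at this
    have c2 : ∀ᶠ q in 𝓝 (s, (0 : ℂ)), AnalyticAt ℂ γ q.1 :=
      (continuous_fst.tendsto (s, (0 : ℂ))).eventually g1.eventually_analyticAt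
    have c3 : ∀ᶠ q in 𝓝 (s, (0 : ℂ)), β q ∈ ball (0 : V) ρ₀ :=
      c1.eventually (isOpen_ball.mem_nhds g2)
    have c4 : ∀ᶠ q in 𝓝 (s, (0 : ℂ)), xi (F · q.2) (E · q.2) (β q) k ≠ 0 := by
      have h4 : AnalyticAt ℂ (fun p : V × ℂ => xi (F · p.2) (E · p.2) p.1) (γ s, 0) :=
        xi_analytic (hFE.holF _ g2 0 h0δ) (hFE.holE _ g2 0 h0δ)
      have h5 : ContinuousAt (fun p : V × ℂ => xi (F · p.2) (E · p.2) p.1 k) (γ s, 0) :=
        ((analyticAt_pi_iff.1 h4) k).continuousAt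
      have h6 : Tendsto (fun q : ℂ × ℂ => (β q, q.2)) (𝓝 (s, 0)) (𝓝 (γ s, 0)) := by
        rw [nhds_prod_eq (x := γ s)]
        exact c1.prodMk (continuous_snd.tendsto (s, (0 : ℂ)))
      exact (h5.tendsto.comp h6).eventually_ne g4
    filter_upwards [h1.eventually_analyticAt, h2, c2, c3, c4] with q q1 q2 q3 q4 q5
    exact ⟨⟨q1, q2⟩, q3, q4, q5⟩)
  refine ⟨O, hO, hKO, min δ δ₀, lt_min hδ hFE.dpos, min_le_right _ _, fun s hs t ht => ?_⟩
  have htδ : t ∈ ball (0 : ℂ) δ := ball_subset_ball (min_le_left _ _) ht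
  have htδ₀ : t ∈ ball (0 : ℂ) δ₀ := ball_subset_ball (min_le_right _ _) ht
  obtain ⟨⟨h1, h2⟩, h3, h4, h5⟩ := h s hs t htδ
  have e1 : ∀ z ∈ O, F (β (z, t)) t = 0 ∧ E (β (z, t)) t = 0 ∧ β (z, t) k = γ z k := by
    intro z hz
    obtain ⟨⟨_, h2⟩, _⟩ := h z hz t htδ
    exact ⟨congrFun h2 0, congrFun h2 1, sub_eq_zero.1 (congrFun h2 2)⟩
  refine ⟨h1, h3, h4, (e1 s hs).1, (e1 s hs).2.1, h5, ?_⟩
  have hb : HasDerivAt (fun z => β (z, t)) (deriv (fun z => β (z, t)) s) s := by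
    apply DifferentiableAt.hasDerivAt
    exact DifferentiableAt.comp (g := β) s h1.differentiableAt (by fun_prop)
  have hv := deriv_arc (β := fun z => β (z, t)) k (hFE.holF _ h4 t htδ₀) (hFE.holE _ h4 t htδ₀) hb
    (by filter_upwards [hO.mem_nhds hs] with z hz using (e1 z hz).1)
    (by filter_upwards [hO.mem_nhds hs] with z hz using (e1 z hz).2.1) h5
  have hk : deriv (fun z => β (z, t)) s k = deriv (fun z => γ z k) s := by
    have h6 : HasDerivAt (fun z => β (z, t) k) (deriv (fun z => β (z, t)) s k) s :=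
      (hasDerivAt_pi.1 hb) k
    rw [← h6.deriv]
    exact Filter.EventuallyEq.deriv_eq
      (by filter_upwards [hO.mem_nhds hs] with z hz using (e1 z hz).2.2)
  rw [hk] at hv
  rw [← hv]
  exact hb


/-- The change of the parameter: solution of `b(κ, t) κ_s = b(s, 0) + P(t) / s`. -/
theorem exists_kappa {b : ℂ × ℂ → ℂ} {r₁ r₂ s₁ s₂ δ : ℝ} (h0 : 0 < r₁) (h1 : r₁ < s₁)
    (h3 : s₂ < r₂) (hδ : 0 < δ) {O : Set ℂ} (hO : IsOpen O)
    (hK : closedBall (0 : ℂ) r₂ \ ball 0 r₁ ⊆ O) (hb : DifferentiableOn ℂ b (O ×ˢ ball 0 δ))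
    (hb0 : ∀ s : ℂ, s₁ ≤ ‖s‖ → ‖s‖ ≤ s₂ → b (s, 0) ≠ 0) :
    ∃ (κ : ℂ × ℂ → ℂ) (p : ℂ → ℂ), DifferentiableOn ℂ p (ball 0 δ) ∧
      (∀ s : ℂ, s₁ ≤ ‖s‖ → ‖s‖ ≤ s₂ → κ (s, 0) = s) ∧
      ∃ δ' > 0, δ' ≤ δ ∧ ∀ s : ℂ, s₁ ≤ ‖s‖ → ‖s‖ ≤ s₂ → ∀ t ∈ ball (0 : ℂ) δ',
        AnalyticAt ℂ κ (s, t) ∧ κ (s, t) ∈ O ∧
        HasDerivAt (fun z => κ (z, t)) (deriv (fun z => κ (z, t)) s) s ∧
        b (κ (s, t), t) * deriv (fun z => κ (z, t)) s = b (s, 0) + (p t - p 0) / s := by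
  obtain ⟨A, p, hp, hA, hA'⟩ := exists_prim h0 hO hK hb
  have hs10 : 0 < s₁ := h0.trans h1
  -- the annulus
  set An : Set ℂ := {s | r₁ < ‖s‖ ∧ ‖s‖ < r₂} with hAn
  have hAno : IsOpen An :=
    (isOpen_lt continuous_const continuous_norm).inter (isOpen_lt continuous_norm continuous_const)
  have hAana : ∀ s ∈ An, ∀ t ∈ ball (0 : ℂ) δ, AnalyticAt ℂ A (s, t) := by
    intro s hs t ht
    refine Vale.Agent.P268.analyticAt_of_differentiableOn (U := An ×ˢ ball (0 : ℂ) δ)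
      (hAno.prod isOpen_ball) ?_ ⟨hs, ht⟩
    rintro ⟨z, τ⟩ ⟨hz, hτ⟩
    exact (hA z τ hz.1 hz.2 hτ).differentiableWithinAt
  have hpana : ∀ t ∈ ball (0 : ℂ) δ, AnalyticAt ℂ p t := fun t ht =>
    hp.analyticAt (isOpen_ball.mem_nhds ht)
  have h0δ : (0 : ℂ) ∈ ball (0 : ℂ) δ := mem_ball_self hδ
  set K : Set ℂ := closedBall (0 : ℂ) s₂ \ ball 0 s₁ with hKdef
  have hKc : IsCompact K := (isCompact_closedBall _ _).diff isOpen_ball
  have hKmem : ∀ s : ℂ, s ∈ K ↔ s₁ ≤ ‖s‖ ∧ ‖s‖ ≤ s₂ := by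
    intro s
    simp only [hKdef, Set.mem_sdiff, mem_closedBall, mem_ball, dist_zero_right, not_lt]
    tauto
  have hKAn : K ⊆ An := fun s hs => ⟨h1.trans_le ((hKmem s).1 hs).1, ((hKmem s).1 hs).2.trans_lt h3⟩
  -- the equation
  set Ψ : ℂ × (ℂ × ℂ) → ℂ := fun q =>
    A (q.2.1 * Complex.exp q.1, q.2.2) - A (q.2.1, 0) + p q.2.2 * q.1 with hΨ
  have hΨa : ∀ s ∈ K, AnalyticAt ℂ Ψ (0, (s, 0)) := by
    intro s hs
    have a1 : AnalyticAt ℂ (fun q : ℂ × (ℂ × ℂ) => q.1) (0, (s, 0)) := analyticAt_fst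
    have a2 : AnalyticAt ℂ (fun q : ℂ × (ℂ × ℂ) => q.2.1) (0, (s, 0)) :=
      ((ContinuousLinearMap.fst ℂ ℂ ℂ).comp (ContinuousLinearMap.snd ℂ ℂ (ℂ × ℂ))).analyticAt _
    have a3 : AnalyticAt ℂ (fun q : ℂ × (ℂ × ℂ) => q.2.2) (0, (s, 0)) :=
      ((ContinuousLinearMap.snd ℂ ℂ ℂ).comp (ContinuousLinearMap.snd ℂ ℂ (ℂ × ℂ))).analyticAt _
    have a4 : AnalyticAt ℂ (fun q : ℂ × (ℂ × ℂ) => A (q.2.1 * Complex.exp q.1, q.2.2))
        (0, (s, 0)) := by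
      refine AnalyticAt.comp (g := A)
        (f := fun q : ℂ × (ℂ × ℂ) => (q.2.1 * Complex.exp q.1, q.2.2)) ?_ ?_
      · simpa using hAana s (hKAn hs) 0 h0δ
      · exact (a2.mul a1.cexp).prod a3
    have a5 : AnalyticAt ℂ (fun q : ℂ × (ℂ × ℂ) => A (q.2.1, 0)) (0, (s, 0)) := by
      refine AnalyticAt.comp (g := A) (f := fun q : ℂ × (ℂ × ℂ) => (q.2.1, (0 : ℂ))) ?_ ?_
      · exact hAana s (hKAn hs) 0 h0δ
      · exact a2.prod analyticAt_const
    have a6 : AnalyticAt ℂ (fun q : ℂ × (ℂ × ℂ) => p q.2.2) (0, (s, 0)) :=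
      AnalyticAt.comp (g := p) (f := fun q : ℂ × (ℂ × ℂ) => q.2.2) (hpana 0 h0δ) a3
    exact (a4.sub a5).add (a6.mul a1)
  obtain ⟨θ, hθ⟩ := exists_implicit hKc (x₀ := fun _ => (0 : ℂ)) (Ψ := Ψ)
    (fun s hs => analyticAt_const) hΨa
    (fun s hs => Eventually.of_forall fun z => by simp [hΨ])
    (fun s hs => by
      have hs0 : s ≠ 0 := norm_pos_iff.1 (h0.trans (hKAn hs).1)
      obtain ⟨w, hw⟩ : ∃ w, w = b (s, 0) * s := ⟨_, rfl⟩
      have hbs : w ≠ 0 := by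
        rw [hw]
        exact mul_ne_zero (hb0 s ((hKmem s).1 hs).1 ((hKmem s).1 hs).2) hs0
      refine ⟨ContinuousLinearEquiv.smulLeft (Units.mk0 _ hbs), fun v => ?_⟩
      have d1 : HasDerivAt (fun x : ℂ => Ψ (x, (s, 0))) w 0 := by
        rw [hw]
        have d2 : HasDerivAt (fun x : ℂ => s * Complex.exp x) s 0 := by
          simpa using (Complex.hasDerivAt_exp 0).const_mul s
        have d3 : HasDerivAt (fun z => A (z, 0)) (b (s, 0) - p 0 / s) (s * Complex.exp 0) := by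
          simpa using hA' s 0 (hKAn hs).1 (hKAn hs).2 h0δ
        have d4 := d3.comp (0 : ℂ) d2
        have d5 : HasDerivAt (fun x : ℂ => p 0 * x) (p 0) 0 := by
          simpa using (hasDerivAt_id (0 : ℂ)).const_mul (p 0)
        refine ((d4.sub_const (A (s, 0))).add d5).congr_deriv ?_
        field_simp
        ring
      have d2 : HasDerivAt (fun x : ℂ => Ψ (x, (s, 0)))
          (fderiv ℂ Ψ (0, (s, 0)) (1, 0)) 0 := by
        have d3 : HasDerivAt (fun x : ℂ => (x, (s, (0 : ℂ)))) ((1 : ℂ), (0 : ℂ × ℂ)) 0 :=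
          (hasDerivAt_id (0 : ℂ)).prodMk (hasDerivAt_const (0 : ℂ) (s, (0 : ℂ)))
        exact HasFDerivAt.comp_hasDerivAt (l := Ψ) (0 : ℂ)
          (hΨa s hs).differentiableAt.hasFDerivAt d3
      have d3 := d2.unique d1
      have d4 : ((v, 0) : ℂ × (ℂ × ℂ)) = v • ((1 : ℂ), (0 : ℂ × ℂ)) := by simp
      rw [d4, map_smul, d3]
      simp [mul_comm])
  refine ⟨fun q => q.1 * Complex.exp (θ q), p, hp, ?_, ?_⟩
  · intro s hs1 hs2
    have := (hθ s ((hKmem s).2 ⟨hs1, hs2⟩)).2.2.self_of_nhds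
    simp [this]
  · obtain ⟨U, hU, hKU, δ₁, hδ₁, h⟩ := exists_tube hKc (p := fun q : ℂ × ℂ =>
        (AnalyticAt ℂ θ q ∧ Ψ (θ q, q) = 0) ∧ q.1 ∈ An ∧ q.1 * Complex.exp (θ q) ∈ An) (by
      intro s hs
      obtain ⟨g1, g2, g3⟩ := hθ s hs
      have g4 : θ (s, 0) = 0 := g3.self_of_nhds
      have c1 : ∀ᶠ q in 𝓝 (s, (0 : ℂ)), q.1 ∈ An :=
        (continuous_fst.tendsto (s, (0 : ℂ))).eventually (hAno.mem_nhds (hKAn hs))
      have c2 : ∀ᶠ q in 𝓝 (s, (0 : ℂ)), q.1 * Complex.exp (θ q) ∈ An := by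
        have c3 : ContinuousAt (fun q : ℂ × ℂ => q.1 * Complex.exp (θ q)) (s, 0) :=
          continuousAt_fst.mul (Complex.continuous_exp.continuousAt.comp g1.continuousAt)
        refine c3.tendsto.eventually (hAno.mem_nhds ?_)
        simp only [g4, Complex.exp_zero, mul_one]
        exact hKAn hs
      filter_upwards [g1.eventually_analyticAt, g2, c1, c2] with q q1 q2 q3 q4
      exact ⟨⟨q1, q2⟩, q3, q4⟩)
    refine ⟨min δ₁ δ, lt_min hδ₁ hδ, min_le_right _ _, fun s hs1 hs2 t ht => ?_⟩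
    have htδ₁ : t ∈ ball (0 : ℂ) δ₁ := ball_subset_ball (min_le_left _ _) ht
    have htδ : t ∈ ball (0 : ℂ) δ := ball_subset_ball (min_le_right _ _) ht
    have hsU : s ∈ U := hKU ((hKmem s).2 ⟨hs1, hs2⟩)
    obtain ⟨⟨g1, g2⟩, g3, g4⟩ := h s hsU t htδ₁
    have hs0 : s ≠ 0 := norm_pos_iff.1 (h0.trans g3.1)
    have hκ0 : s * Complex.exp (θ (s, t)) ≠ 0 := mul_ne_zero hs0 (Complex.exp_ne_zero _)
    have hκa : AnalyticAt ℂ (fun q : ℂ × ℂ => q.1 * Complex.exp (θ q)) (s, t) :=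
      analyticAt_fst.mul g1.cexp
    -- the derivatives
    set θ' := deriv (fun z => θ (z, t)) s with hθ'
    have dθ : HasDerivAt (fun z => θ (z, t)) θ' s := by
      apply DifferentiableAt.hasDerivAt
      exact DifferentiableAt.comp (g := θ) s g1.differentiableAt (by fun_prop)
    have dκ : HasDerivAt (fun z => z * Complex.exp (θ (z, t)))
        (Complex.exp (θ (s, t)) + s * (Complex.exp (θ (s, t)) * θ')) s :=
      ((hasDerivAt_id' s).fun_mul dθ.cexp).congr_deriv (by ring)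
    refine ⟨hκa, hK ⟨?_, ?_⟩, dκ.differentiableAt.hasDerivAt, ?_⟩
    · rw [mem_closedBall_zero_iff]
      exact g4.2.le
    · rw [mem_ball_zero_iff, not_lt]
      exact g4.1.le
    have dκ' : deriv (fun z => z * Complex.exp (θ (z, t))) s =
        Complex.exp (θ (s, t)) + s * (Complex.exp (θ (s, t)) * θ') := dκ.deriv
    have d1 : HasDerivAt (fun z => A (z * Complex.exp (θ (z, t)), t)) _ s :=
      HasDerivAt.comp (h₂ := fun z => A (z, t)) (h := fun z => z * Complex.exp (θ (z, t))) s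
        (hA' (s * Complex.exp (θ (s, t))) t g4.1 g4.2 htδ) dκ
    have d2 := hA' s 0 g3.1 g3.2 h0δ
    have d3 := (d1.sub d2).add (dθ.const_mul (p t))
    have d4 : HasDerivAt (fun z => A (z * Complex.exp (θ (z, t)), t) - A (z, 0) +
        p t * θ (z, t)) 0 s := by
      refine (hasDerivAt_const s (0 : ℂ)).congr_of_eventuallyEq ?_
      filter_upwards [hU.mem_nhds hsU] with z hz
      exact (h z hz t htδ₁).1.2
    have d5 := d3.unique d4
    simp only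
    rw [dκ']
    have e0 : Complex.exp (θ (s, t)) ≠ 0 := Complex.exp_ne_zero _
    field_simp at d5 ⊢
    linear_combination d5

/-- The row T1-A. -/
theorem annulusStmt : AnnulusStmt := by
  intro F E ρ₀ δ₀ hFE γ c u R hR hγ hc h0
  obtain ⟨k, R₁, hR₁, hR₁R, hk⟩ := exists_coord hR
    (fun s hs => ⟨(hγ s hs).1, (hγ s hs).2.2.2.2.2.2.1⟩) h0
  refine ⟨R₁, hR₁, fun s₁ s₂ hs₁ hs₁₂ hs₂ => ?_⟩
  obtain ⟨r₂, hr₂, hr₂'⟩ := exists_between hs₂
  set r₁ := s₁ / 2 with hr₁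
  have hr₁0 : 0 < r₁ := by positivity
  have hr₁s : r₁ < s₁ := by rw [hr₁]; linarith
  set K : Set ℂ := closedBall (0 : ℂ) r₂ \ ball 0 r₁ with hKdef
  have hKc : IsCompact K := (isCompact_closedBall _ _).diff isOpen_ball
  have hKmem : ∀ s : ℂ, s ∈ K ↔ r₁ ≤ ‖s‖ ∧ ‖s‖ ≤ r₂ := by
    intro s
    simp only [hKdef, Set.mem_sdiff, mem_closedBall, mem_ball, dist_zero_right, not_lt]
    tauto
  have hKR : ∀ s ∈ K, s ∈ ball (0 : ℂ) R := by
    intro s hs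
    rw [mem_ball_zero_iff]
    exact (((hKmem s).1 hs).2.trans_lt hr₂').trans_le hR₁R
  have hode : ∀ s ∈ ball (0 : ℂ) R, s ^ c * deriv (fun z => γ z k) s =
      u s * xi (F · 0) (E · 0) (γ s) k := by
    intro s hs
    obtain ⟨g1, _, _, _, _, _, _, g8⟩ := hγ s hs
    have h1 : deriv γ s k = deriv (fun z => γ z k) s :=
      ((hasDerivAt_pi.1 g1.differentiableAt.hasDerivAt) k).deriv.symm
    have h2 := congrFun g8 k
    simp only [Pi.smul_apply, smul_eq_mul] at h2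
    rw [← h1, h2]
  have hxi : ∀ s ∈ K, xi (F · 0) (E · 0) (γ s) k ≠ 0 := by
    intro s hs h
    have h1 := hode s (hKR s hs)
    have hs0 : 0 < ‖s‖ := hr₁0.trans_le ((hKmem s).1 hs).1
    rw [h, mul_zero] at h1
    exact mul_ne_zero (pow_ne_zero _ (norm_pos_iff.1 hs0))
      (hk s hs0 (((hKmem s).1 hs).2.trans_lt hr₂')) h1
  obtain ⟨β, hβ0, O, hO, hKO, δ, hδ, hδδ₀, hβ⟩ := exists_beta hFE hKc (γ := γ) (k := k) (by
    intro s hs
    have hsR := hKR s hs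
    refine ⟨(hγ s hsR).1, (hγ s hsR).2.2.2.1, ?_, hxi s hs⟩
    filter_upwards [isOpen_ball.mem_nhds hsR] with z hz
    exact ⟨(hγ z hz).2.2.2.2.1, (hγ z hz).2.2.2.2.2.1⟩)
  -- the scalar function
  set b : ℂ × ℂ → ℂ := fun q => deriv (fun z => γ z k) q.1 / xi (F · q.2) (E · q.2) (β q) k with hb
  have hbana : ∀ s ∈ O, ∀ t ∈ ball (0 : ℂ) δ, AnalyticAt ℂ b (s, t) := by
    intro s hs t ht
    obtain ⟨g1, g2, g3, g4, g5, g6, g7⟩ := hβ s hs t ht
    have htδ₀ : t ∈ ball (0 : ℂ) δ₀ := ball_subset_ball hδδ₀ ht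
    have a1 : AnalyticAt ℂ (fun q : ℂ × ℂ => deriv (fun z => γ z k) q.1) (s, t) :=
      AnalyticAt.comp (g := deriv (fun z => γ z k)) (f := fun q : ℂ × ℂ => q.1)
        ((analyticAt_pi_iff.1 g2) k).deriv analyticAt_fst
    have a2 : AnalyticAt ℂ (fun p : V × ℂ => xi (F · p.2) (E · p.2) p.1) (β (s, t), t) :=
      xi_analytic (hFE.holF _ g3 t htδ₀) (hFE.holE _ g3 t htδ₀)
    have a3 : AnalyticAt ℂ (fun q : ℂ × ℂ => xi (F · q.2) (E · q.2) (β q) k) (s, t) :=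
      AnalyticAt.comp (g := fun p : V × ℂ => xi (F · p.2) (E · p.2) p.1 k)
        (f := fun q : ℂ × ℂ => (β q, q.2)) ((analyticAt_pi_iff.1 a2) k)
        (g1.prod analyticAt_snd)
    exact a1.div a3 g6
  have hbd : DifferentiableOn ℂ b (O ×ˢ ball 0 δ) := by
    rintro ⟨s, t⟩ ⟨hs, ht⟩
    exact (hbana s hs t ht).differentiableAt.differentiableWithinAt
  have hs₁K : ∀ s : ℂ, s₁ ≤ ‖s‖ → ‖s‖ ≤ s₂ → s ∈ K := fun s h1 h2 =>
    (hKmem s).2 ⟨hr₁s.le.trans h1, h2.trans hr₂.le⟩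
  have hb0 : ∀ s : ℂ, s₁ ≤ ‖s‖ → ‖s‖ ≤ s₂ → s ^ c * b (s, 0) = u s ∧ b (s, 0) ≠ 0 := by
    intro s h1 h2
    have hsK := hs₁K s h1 h2
    have h3 := hode s (hKR s hsK)
    have h4 := hxi s hsK
    have h5 : b (s, 0) = deriv (fun z => γ z k) s / xi (F · 0) (E · 0) (γ s) k := by
      simp only [hb, hβ0 s hsK]
    refine ⟨?_, ?_⟩
    · rw [h5, mul_div_assoc', h3]
      field_simp
    · rw [h5]
      exact div_ne_zero (hk s (hs₁.trans_le h1) (h2.trans_lt hs₂)) h4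
  obtain ⟨κ, p, hp, hκ0, δ', hδ', hδ'δ, hκ⟩ := exists_kappa hr₁0 hr₁s hr₂ hδ hO hKO hbd
    (fun s h1 h2 => (hb0 s h1 h2).2)
  refine ⟨δ', hδ', fun s t => β (κ (s, t), t), fun t => p t - p 0, sub_self _, ?_, ?_, ?_⟩
  · exact ((hp.mono (ball_subset_ball hδ'δ)).continuousOn).sub continuousOn_const
  · intro s h1 h2
    simp only [hκ0 s h1.le h2.le]
    exact hβ0 s (hs₁K s h1.le h2.le)
  · intro s h1 h2 t ht
    have htδ : t ∈ ball (0 : ℂ) δ := ball_subset_ball hδ'δ ht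
    obtain ⟨k1, k2, k3, k4⟩ := hκ s h1.le h2.le t ht
    obtain ⟨g1, g2, g3, g4, g5, g6, g7⟩ := hβ _ k2 t htδ
    refine ⟨?_, g3, g4, g5, ?_⟩
    · exact AnalyticAt.comp (g := β) (f := fun q : ℂ × ℂ => (κ (q.1, q.2), q.2)) g1
        (k1.prod analyticAt_snd)
    · have d1 : HasDerivAt (fun z => β (κ (z, t), t)) _ s :=
        HasDerivAt.scomp (g₁ := fun z => β (z, t)) s g7 k3
      have d2 : deriv (fun z => β (κ (z, t), t)) s = _ := d1.deriv
      rw [d2, smul_smul, smul_smul]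
      congr 1
      have hs0 : s ≠ 0 := norm_pos_iff.1 (hs₁.trans h1)
      have e1 : b (κ (s, t), t) = deriv (fun z => γ z k) (κ (s, t)) /
        xi (F · t) (E · t) (β (κ (s, t), t)) k := rfl
      have e2 := (hb0 s h1.le h2.le).1
      rw [← e1]
      obtain ⟨c', rfl⟩ : ∃ c', c = c' + 1 := ⟨c - 1, by omega⟩
      show _ = u s + (p t - p 0) * s ^ (c' + 1 - 1)
      rw [Nat.add_sub_cancel]
      have e3 : s ^ (c' + 1) * ((p t - p 0) / s) = (p t - p 0) * s ^ c' := by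
        field_simp
        ring
      linear_combination (s ^ (c' + 1)) * k4 + e2 + e3

end Vale.Agent.P298.H652
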