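import Vale.Agent.P298.H652.Node3

/-!
The row T1-N: simultaneous parametrization in the node case.
-/

namespace Vale.Agent.P298.H652

open Filter Topology Metric Set Vale.Agent.P298 Vale.Agent.P298.H462

theorem minor_of_cr {x y : V} (h : cr x y = 0) (i j : Fin 3) : x i * y j = x j * y i := by
  have h0 := congrFun h 0
  have h1 := congrFun h 1
  have h2 := congrFun h 2
  simp only [cr_0, cr_1, cr_2, Pi.zero_apply] at h0 h1 h2
  fin_cases i <;> fin_cases j <;> simp only [Fin.zero_eta, Fin.mk_one, Fin.reduceFinMk]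
  · linear_combination h2
  · linear_combination -h1
  · linear_combination -h2
  · linear_combination h0
  · linear_combination h1
  · linear_combination -h0

theorem xi_eq_cr (f e : V → ℂ) (x : V) :
    xi f e x = cr (fun i => pd i f x) (fun i => pd i e x) := by
  apply ext3
  · rfl
  · show -(pd 0 f x * pd 2 e x - pd 2 f x * pd 0 e x) = pd 2 f x * pd 0 e x - pd 0 f x * pd 2 e x
    ring
  · rfl

section

variable {F E : V → ℂ → ℂ}

theorem hasDerivAt_pd_line (hF : AnalyticAt ℂ (fun p : V × ℂ => F p.1 p.2) (0, 0)) (w : V)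
    (i : Fin 3) : HasDerivAt (fun z : ℂ => pd i (F · 0) (z • w)) (mv (hs F) w i) 0 := by
  have h1 : AnalyticAt ℂ (fun p : V × ℂ => (fun x t => pd i (F · t) x) p.1 p.2)
      ((0 : ℂ) • w, 0) := by
    simpa using pd_analytic hF i
  have h2 := hasDerivAt_line (H := fun x t => pd i (F · t) x) h1
  refine h2.congr_deriv ?_
  rw [Fin.sum_univ_three]
  simp only [mv, hs, zero_smul]
  ring

theorem xi_diff (hF : AnalyticAt ℂ (fun p : V × ℂ => F p.1 p.2) (0, 0))
    (hE : AnalyticAt ℂ (fun p : V × ℂ => E p.1 p.2) (0, 0)) :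
    DifferentiableAt ℂ (xi (F · 0) (E · 0)) 0 := by
  have h1 := xi_analytic hF hE
  have h2 : AnalyticAt ℂ (fun x : V => xi (F · 0) (E · 0) x) 0 :=
    AnalyticAt.comp (g := fun p : V × ℂ => xi (F · p.2) (E · p.2) p.1)
      (f := fun x : V => (x, (0 : ℂ))) h1 (analyticAt_id.prod analyticAt_const)
  exact h2.differentiableAt

/-- The linear part of `ξ` at the origin. -/
theorem xi_fderiv (hF : AnalyticAt ℂ (fun p : V × ℂ => F p.1 p.2) (0, 0))
    (hE : AnalyticAt ℂ (fun p : V × ℂ => E p.1 p.2) (0, 0)) (w : V) :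
    fderiv ℂ (xi (F · 0) (E · 0)) 0 w =
      cr (mv (hs F) w) (gr E 0) + cr (gr F 0) (mv (hs E) w) := by
  have h1 : HasDerivAt (fun z : ℂ => z • w) w 0 := by
    simpa using (hasDerivAt_id (0 : ℂ)).smul_const w
  have h2 : HasDerivAt (fun z : ℂ => xi (F · 0) (E · 0) (z • w))
      (fderiv ℂ (xi (F · 0) (E · 0)) 0 w) 0 := by
    refine HasFDerivAt.comp_hasDerivAt (l := xi (F · 0) (E · 0)) (0 : ℂ) ?_ h1
    simpa using (xi_diff hF hE).hasFDerivAt
  have h3 := hasDerivAt_pi.1 h2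
  have p := hasDerivAt_pd_line hF w
  have e := hasDerivAt_pd_line hE w
  have key : ∀ i j : Fin 3, HasDerivAt (fun z : ℂ => pd i (F · 0) (z • w) * pd j (E · 0) (z • w) -
      pd j (F · 0) (z • w) * pd i (E · 0) (z • w))
      ((mv (hs F) w i * gr E 0 j + gr F 0 i * mv (hs E) w j) -
        (mv (hs F) w j * gr E 0 i + gr F 0 j * mv (hs E) w i)) 0 := by
    intro i j
    have k1 := (p i).fun_mul (e j)
    have k2 := (p j).fun_mul (e i)
    simpa [gr] using k1.fun_sub k2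
  apply ext3
  · refine (h3 0).unique ?_
    have := key 1 2
    refine this.congr_deriv ?_
    simp only [Pi.add_apply, cr_0]
    ring
  · refine (h3 1).unique ?_
    have := (key 0 2).fun_neg
    refine this.congr_deriv ?_
    simp only [Pi.add_apply, cr_1]
    ring
  · refine (h3 2).unique ?_
    have := key 0 1
    refine this.congr_deriv ?_
    simp only [Pi.add_apply, cr_2]
    ring

theorem paramCurves_swap {k : ℕ} {γ : Fin k → ℂ → ℂ → V} {ρ : ℝ}
    (h : H119.ParamCurves E F γ ρ) : H119.ParamCurves F E γ ρ :=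
  { pos := h.pos
    hol := h.hol
    zero := h.zero
    mem := fun i s hs t ht => ⟨(h.mem i s hs t ht).2, (h.mem i s hs t ht).1⟩
    imm := h.imm
    inj := h.inj
    cover := fun ε hε => (h.cover ε hε).mono fun _ hp h1 h2 => hp h2 h1 }

/-- The node case, when `e_0` is smooth. -/
theorem node_aux (hF : AnalyticAt ℂ (fun p : V × ℂ => F p.1 p.2) (0, 0))
    (hE : AnalyticAt ℂ (fun p : V × ℂ => E p.1 p.2) (0, 0))
    (F0 : ∀ᶠ t in 𝓝 (0 : ℂ), F 0 t = 0) (E0 : ∀ᶠ t in 𝓝 (0 : ℂ), E 0 t = 0)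
    (hxi : ∀ᶠ t in 𝓝 (0 : ℂ), xi (F · t) (E · t) 0 = 0) (ha : gr E 0 ≠ 0) {v : V} {c : ℂ}
    (hv : v ≠ 0) (hc : c ≠ 0) (he : fderiv ℂ (xi (F · 0) (E · 0)) 0 v = c • v) :
    ∃ (γ : Fin 2 → ℂ → ℂ → V) (ρ : ℝ), H119.ParamCurves F E γ ρ := by
  obtain ⟨j, hj⟩ := Function.ne_iff.1 ha
  rw [Pi.zero_apply] at hj
  set κ : ℂ → ℂ := fun t => gr F t j / gr E t j with hκ
  set G : V → ℂ → ℂ := fun x t => F x t - κ t * E x t with hGdef
  have hgra : ∀ {H : V → ℂ → ℂ}, AnalyticAt ℂ (fun p : V × ℂ => H p.1 p.2) (0, 0) →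
      AnalyticAt ℂ (fun t => gr H t j) 0 := by
    intro H hH
    exact AnalyticAt.comp (g := fun p : V × ℂ => pd j (H · p.2) p.1)
      (f := fun t : ℂ => ((0 : V), t)) (pd_analytic hH j) (analyticAt_const.prod analyticAt_id)
  have hκa : AnalyticAt ℂ κ 0 := (hgra hF).div (hgra hE) hj
  have hG : AnalyticAt ℂ (fun p : V × ℂ => G p.1 p.2) (0, 0) := by
    refine hF.sub (AnalyticAt.mul ?_ hE)
    exact AnalyticAt.comp (g := κ) (f := fun p : V × ℂ => p.2) hκa analyticAt_snd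
  have hpdG : ∀ (x : V) (t : ℂ), AnalyticAt ℂ (fun p : V × ℂ => F p.1 p.2) (x, t) →
      AnalyticAt ℂ (fun p : V × ℂ => E p.1 p.2) (x, t) → ∀ i,
      pd i (G · t) x = pd i (F · t) x - κ t * pd i (E · t) x := by
    intro x t h1 h2 i
    have g1 : DifferentiableAt ℂ (F · t) x :=
      DifferentiableAt.comp (g := fun p : V × ℂ => F p.1 p.2) (f := fun x : V => (x, t)) x
        h1.differentiableAt (by fun_prop)
    have g2 : DifferentiableAt ℂ (E · t) x :=
      DifferentiableAt.comp (g := fun p : V × ℂ => E p.1 p.2) (f := fun x : V => (x, t)) x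
        h2.differentiableAt (by fun_prop)
    have g3 : fderiv ℂ (G · t) x = fderiv ℂ (F · t) x - κ t • fderiv ℂ (E · t) x :=
      (g1.hasFDerivAt.fun_sub (g2.hasFDerivAt.const_mul (κ t))).fderiv
    simp only [pd]
    rw [g3]
    simp
  have hline0 : Tendsto (fun t : ℂ => ((0 : V), t)) (𝓝 0) (𝓝 ((0 : V), (0 : ℂ))) :=
    (by fun_prop : Continuous fun t : ℂ => ((0 : V), t)).tendsto 0
  have hgr : ∀ᶠ t in 𝓝 (0 : ℂ), gr G t = 0 := by
    filter_upwards [hline0.eventually hF.eventually_analyticAt,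
      hline0.eventually hE.eventually_analyticAt, hxi,
      (hgra hE).continuousAt.eventually_ne hj] with t h1 h2 h3 h4
    ext i
    simp only [gr, Pi.zero_apply]
    rw [hpdG 0 t h1 h2 i]
    rw [xi_eq_cr] at h3
    have h5 := minor_of_cr h3 i j
    simp only [hκ, gr]
    have h4' : pd j (E · t) 0 ≠ 0 := h4
    field_simp
    linear_combination h5
  have hxiG : xi (G · 0) (E · 0) =ᶠ[𝓝 0] xi (F · 0) (E · 0) := by
    have hlx : Tendsto (fun x : V => (x, (0 : ℂ))) (𝓝 0) (𝓝 ((0 : V), (0 : ℂ))) :=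
      (by fun_prop : Continuous fun x : V => (x, (0 : ℂ))).tendsto 0
    filter_upwards [hlx.eventually hF.eventually_analyticAt,
      hlx.eventually hE.eventually_analyticAt] with x h1 h2
    rw [xi_eq_cr, xi_eq_cr]
    apply ext3 <;> simp only [cr_0, cr_1, cr_2, hpdG x 0 h1 h2] <;> ring
  have he' : cr (mv (hs G) v) (gr E 0) = c • v := by
    have h1 := xi_fderiv hG hE v
    rw [hxiG.fderiv_eq, he, hgr.self_of_nhds] at h1
    rw [h1]
    apply ext3 <;> simp
  obtain ⟨v', l, h1, h2, h3, h4, h5⟩ := exists_node (hs_symm hG) hc hv he'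
  obtain ⟨γ, ρ, hγ⟩ := node_core hG hE (by
      filter_upwards [F0, E0] with t h1 h2
      simp only [hGdef, h1, h2, mul_zero, sub_zero]) E0 hgr (l := l) (v := ![v, v'])
    (c := ![c, -c]) (by
      intro i
      fin_cases i
      · exact hc
      · exact neg_ne_zero.2 hc) (by
      intro i
      fin_cases i
      · exact he'
      · exact h1) (by
      intro i
      fin_cases i
      · exact h2
      · exact h3) h4 (by
      intro w hw1 hw2
      obtain ⟨α, hα | hα⟩ := h5 w hw1 hw2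
      · exact ⟨α, 0, hα⟩
      · exact ⟨α, 1, hα⟩)
  refine ⟨γ, ρ, ⟨hγ.pos, hγ.hol, hγ.zero, ?_, hγ.imm, hγ.inj, ?_⟩⟩
  · intro i s hs t ht
    obtain ⟨g1, g2⟩ := hγ.mem i s hs t ht
    simp only [hGdef, g2, mul_zero, sub_zero] at g1
    exact ⟨g1, g2⟩
  · intro ε hε
    filter_upwards [hγ.cover ε hε] with p hp g1 g2
    refine hp ?_ g2
    simp only [hGdef, g1, g2, mul_zero, sub_zero]

end

/-- The row T1-N. -/
theorem nodeStmt : NodeStmt := by
  intro F E ρ₀ δ₀ hFE k γ c u R hB hi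
  obtain ⟨i, hi⟩ := hi
  have hF := hFE.holF 0 (mem_ball_self hFE.rpos) 0 (mem_ball_self hFE.dpos)
  have hE := hFE.holE 0 (mem_ball_self hFE.rpos) 0 (mem_ball_self hFE.dpos)
  have hδ : ball (0 : ℂ) δ₀ ∈ 𝓝 0 := ball_mem_nhds 0 hFE.dpos
  have F0 : ∀ᶠ t in 𝓝 (0 : ℂ), F 0 t = 0 := by filter_upwards [hδ] with t ht using hFE.F0 t ht
  have E0 : ∀ᶠ t in 𝓝 (0 : ℂ), E 0 t = 0 := by filter_upwards [hδ] with t ht using hFE.E0 t ht
  have hxi : ∀ᶠ t in 𝓝 (0 : ℂ), xi (F · t) (E · t) 0 = 0 := by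
    filter_upwards [hδ] with t ht using hFE.xi0 t ht
  have h0R : (0 : ℂ) ∈ ball (0 : ℂ) R := mem_ball_self hB.pos
  have hR : ball (0 : ℂ) R ∈ 𝓝 0 := ball_mem_nhds 0 hB.pos
  obtain ⟨v, lam, hv, hlam, he⟩ := eigen_of_branch (ξ := xi (F · 0) (E · 0)) (γ := γ i) (u := u i)
    (xi_diff hF hE) hxi.self_of_nhds (hB.hol i 0 h0R) (hB.zero i) (by
      have h1 : ∀ᶠ s in 𝓝[≠] (0 : ℂ), γ i s ≠ 0 := by
        filter_upwards [self_mem_nhdsWithin, nhdsWithin_le_nhds hR] with s hs hsR h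
        rcases hB.inj i i s hsR 0 h0R (h.trans (hB.zero i).symm) with h2 | h2
        · exact hs h2.1
        · exact hs h2.2
      exact h1.frequently.filter_mono nhdsWithin_le_nhds)
    (hB.hol_u i 0 h0R).continuousAt (hB.u_ne i 0 h0R) (by
      filter_upwards [hR] with s hs
      have := hB.ode i s hs
      rwa [hi, pow_one] at this)
  by_cases h1 : gr E 0 = 0
  · have h2 : gr F 0 ≠ 0 := by
      intro h2
      have h3 := xi_fderiv hF hE v
      rw [h1, h2, he] at h3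
      have h4 : cr (mv (hs F) v) 0 + cr 0 (mv (hs E) v) = 0 := by
        apply ext3 <;> simp
      rw [h4] at h3
      exact (smul_ne_zero hlam hv) h3
    have hsw : ∀ (t : ℂ) (x : V), xi (E · t) (F · t) x = -xi (F · t) (E · t) x := by
      intro t x
      rw [xi_eq_cr, xi_eq_cr]
      apply ext3 <;> simp only [cr_0, cr_1, cr_2, Pi.neg_apply] <;> ring
    have h3 : xi (E · 0) (F · 0) = -xi (F · 0) (E · 0) := by
      ext1 x
      exact hsw 0 x
    obtain ⟨γ', ρ, h⟩ := node_aux hE hF E0 F0 (by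
      filter_upwards [hxi] with t ht
      rw [hsw, ht, neg_zero]) h2 hv (neg_ne_zero.2 hlam) (by
      rw [h3, fderiv_neg, neg_apply, he, neg_smul])
    exact ⟨2, γ', ρ, paramCurves_swap h⟩
  · obtain ⟨γ', ρ, h⟩ := node_aux hF hE F0 E0 hxi h1 hv hlam he
    exact ⟨2, γ', ρ, h⟩

end Vale.Agent.P298.H652
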