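import Vale.Agent.P298.H652.Node1

/-!
Second order expansions of a family at the origin, and the eigenvalue of a branch.
-/

namespace Vale.Agent.P298.H652

open Filter Topology Metric Set Vale.Agent.P298 Vale.Agent.P298.H462

/-- The difference quotient `(H(s w, t) - H(0, t)) / s`, as a function of `((w, t), s)`. -/
noncomputable def Q1 (H : V → ℂ → ℂ) (q : (V × ℂ) × ℂ) : ℂ :=
  dslope (fun ζ => H (ζ • q.1.1) q.1.2) 0 q.2

/-- The second difference quotient. -/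
noncomputable def Q2 (H : V → ℂ → ℂ) (q : (V × ℂ) × ℂ) : ℂ :=
  dslope (fun ζ => Q1 H (q.1, ζ)) 0 q.2

/-- The gradient at the origin. -/
noncomputable def gr (H : V → ℂ → ℂ) (t : ℂ) : V := fun i => pd i (H · t) 0

/-- The matrix of second derivatives at the origin, for `t = 0`. -/
noncomputable def hs (H : V → ℂ → ℂ) (i j : Fin 3) : ℂ := pd j (pd i (H · 0)) 0

section

variable {H : V → ℂ → ℂ}

theorem analyticAt_line (hH : AnalyticAt ℂ (fun p : V × ℂ => H p.1 p.2) (0, 0)) (w : V) :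
    AnalyticAt ℂ (fun x : (V × ℂ) × ℂ => H (x.2 • x.1.1) x.1.2) ((w, 0), 0) := by
  have a1 : AnalyticAt ℂ (fun x : (V × ℂ) × ℂ => x.2) ((w, 0), 0) := analyticAt_snd
  have a2 : AnalyticAt ℂ (fun x : (V × ℂ) × ℂ => x.1.1) ((w, 0), 0) :=
    ((ContinuousLinearMap.fst ℂ V ℂ).comp (ContinuousLinearMap.fst ℂ (V × ℂ) ℂ)).analyticAt _
  have a3 : AnalyticAt ℂ (fun x : (V × ℂ) × ℂ => x.1.2) ((w, 0), 0) :=
    ((ContinuousLinearMap.snd ℂ V ℂ).comp (ContinuousLinearMap.fst ℂ (V × ℂ) ℂ)).analyticAt _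
  refine AnalyticAt.comp (g := fun p : V × ℂ => H p.1 p.2)
    (f := fun x : (V × ℂ) × ℂ => (x.2 • x.1.1, x.1.2)) ?_ ((a1.smul a2).prod a3)
  simpa using hH

theorem Q1_analytic (hH : AnalyticAt ℂ (fun p : V × ℂ => H p.1 p.2) (0, 0)) (w : V) :
    AnalyticAt ℂ (Q1 H) ((w, 0), 0) :=
  analyticAt_dslope (analyticAt_line hH w)

theorem Q2_analytic (hH : AnalyticAt ℂ (fun p : V × ℂ => H p.1 p.2) (0, 0)) (w : V) :
    AnalyticAt ℂ (Q2 H) ((w, 0), 0) :=
  analyticAt_dslope (Q1_analytic hH w)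

theorem mul_Q1 (w : V) (s t : ℂ) : s * Q1 H ((w, t), s) = H (s • w) t - H 0 t := by
  have h := sub_smul_dslope (fun ζ : ℂ => H (ζ • w) t) 0 s
  simpa [Q1] using h

theorem mul_Q2 (w : V) (s t : ℂ) :
    s * Q2 H ((w, t), s) = Q1 H ((w, t), s) - Q1 H ((w, t), 0) := by
  have h := sub_smul_dslope (fun ζ : ℂ => Q1 H ((w, t), ζ)) 0 s
  simpa [Q2] using h

theorem dt_eq_sum (x y : V) : dt x y = ∑ i, y i * x i := by
  rw [Fin.sum_univ_three]
  simp only [dt]
  ring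

/-- The derivative along a line. -/
theorem hasDerivAt_line {t ζ : ℂ} {w : V}
    (hH : AnalyticAt ℂ (fun p : V × ℂ => H p.1 p.2) (ζ • w, t)) :
    HasDerivAt (fun z : ℂ => H (z • w) t) (∑ i, w i * pd i (H · t) (ζ • w)) ζ := by
  have h1 : HasDerivAt (fun z : ℂ => (z • w, t)) (w, (0 : ℂ)) ζ := by
    refine HasDerivAt.prodMk ?_ (hasDerivAt_const ζ t)
    simpa using (hasDerivAt_id ζ).smul_const w
  have h2 := HasFDerivAt.comp_hasDerivAt (l := fun p : V × ℂ => H p.1 p.2) ζ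
    hH.differentiableAt.hasFDerivAt h1
  rw [fderiv_eq hH w] at h2
  exact h2

theorem Q1_zero {t : ℂ} (hH : AnalyticAt ℂ (fun p : V × ℂ => H p.1 p.2) (0, t)) (w : V) :
    Q1 H ((w, t), 0) = dt (gr H t) w := by
  have h1 : AnalyticAt ℂ (fun p : V × ℂ => H p.1 p.2) ((0 : ℂ) • w, t) := by simpa using hH
  have h2 := (hasDerivAt_line h1).deriv
  simp only [Q1, dslope_same]
  rw [h2, dt_eq_sum]
  simp [gr]

theorem Q2_zero (hH : AnalyticAt ℂ (fun p : V × ℂ => H p.1 p.2) (0, 0)) (w : V) :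
    2 * Q2 H ((w, 0), 0) = dt (mv (hs H) w) w := by
  -- the function on the line and its difference quotient
  set h : ℂ → ℂ := fun ζ => H (ζ • w) 0 with hh
  set k : ℂ → ℂ := fun ζ => Q1 H ((w, 0), ζ) with hk
  have hka : AnalyticAt ℂ k 0 := by
    refine AnalyticAt.comp (g := Q1 H) (f := fun ζ : ℂ => ((w, (0 : ℂ)), ζ)) (Q1_analytic hH w) ?_
    exact analyticAt_const.prod analyticAt_id
  have hhk : ∀ ζ, h ζ = H 0 0 + ζ * k ζ := by
    intro ζ
    simp only [hh, hk]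
    rw [mul_Q1]
    ring
  have hline : Tendsto (fun ζ : ℂ => (ζ • w, (0 : ℂ))) (𝓝 0) (𝓝 ((0 : V), (0 : ℂ))) := by
    have : Continuous fun ζ : ℂ => (ζ • w, (0 : ℂ)) := by fun_prop
    simpa using this.tendsto 0
  have hana : ∀ᶠ ζ : ℂ in 𝓝 0, AnalyticAt ℂ (fun p : V × ℂ => H p.1 p.2) (ζ • w, 0) :=
    hline.eventually hH.eventually_analyticAt
  -- first computation
  have d1 : ∀ᶠ ζ in 𝓝 (0 : ℂ), deriv h ζ = k ζ + ζ * deriv k ζ := by
    filter_upwards [hka.eventually_analyticAt] with ζ hζ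
    have e1 : HasDerivAt (fun z => H 0 0 + z * k z) (1 * k ζ + ζ * deriv k ζ) ζ :=
      ((hasDerivAt_id' ζ).fun_mul hζ.differentiableAt.hasDerivAt).const_add _
    have e2 : HasDerivAt h (1 * k ζ + ζ * deriv k ζ) ζ :=
      e1.congr_of_eventuallyEq (Eventually.of_forall hhk)
    rw [e2.deriv, one_mul]
  have d2 : HasDerivAt (deriv h) (deriv k 0 + (1 * deriv k 0 + 0 * deriv (deriv k) 0)) 0 := by
    refine HasDerivAt.congr_of_eventuallyEq ?_ d1
    exact hka.differentiableAt.hasDerivAt.add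
      ((hasDerivAt_id' (0 : ℂ)).fun_mul hka.deriv.differentiableAt.hasDerivAt)
  -- second computation
  have d3 : ∀ᶠ ζ in 𝓝 (0 : ℂ), deriv h ζ = ∑ i, w i * pd i (H · 0) (ζ • w) := by
    filter_upwards [hana] with ζ hζ
    exact (hasDerivAt_line hζ).deriv
  have hpd : ∀ i, AnalyticAt ℂ (fun p : V × ℂ => (fun x t => pd i (H · t) x) p.1 p.2)
      ((0 : ℂ) • w, 0) := by
    intro i
    simpa using pd_analytic hH i
  have d4 : HasDerivAt (deriv h) (∑ i, w i * ∑ j, w j * hs H i j) 0 := by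
    refine HasDerivAt.congr_of_eventuallyEq ?_ d3
    have e1 : ∀ i ∈ (Finset.univ : Finset (Fin 3)), HasDerivAt
        (fun ζ : ℂ => w i * pd i (H · 0) (ζ • w)) (w i * ∑ j, w j * hs H i j) 0 := by
      intro i _
      have e2 := (hasDerivAt_line (H := fun x t => pd i (H · t) x) (hpd i)).const_mul (w i)
      simpa [hs] using e2
    have e3 := HasDerivAt.fun_sum e1
    exact e3
  have d5 := d2.unique d4
  have d6 : Q2 H ((w, 0), 0) = deriv k 0 := by
    simp only [Q2, dslope_same, hk]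
  rw [d6]
  simp only [dt, mv]
  simp only [Fin.sum_univ_three] at d5
  linear_combination d5

/-- The matrix of second derivatives is symmetric. -/
theorem hs_symm (hH : AnalyticAt ℂ (fun p : V × ℂ => H p.1 p.2) (0, 0)) (i j : Fin 3) :
    hs H i j = hs H j i := by
  have h1 : AnalyticAt ℂ (H · 0) (0 : V) := by
    exact AnalyticAt.comp (g := fun p : V × ℂ => H p.1 p.2) (f := fun x : V => (x, (0 : ℂ))) hH
      (analyticAt_id.prod analyticAt_const)
  have h2 : IsSymmSndFDerivAt ℂ (H · 0) (0 : V) :=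
    h1.contDiffAt.isSymmSndFDerivAt (n := ⊤) le_top
  have h3 : ∀ i j : Fin 3, hs H i j = fderiv ℂ (fderiv ℂ (H · 0)) 0 (Pi.single j 1)
      (Pi.single i 1) := by
    intro i j
    have e1 : HasFDerivAt (fderiv ℂ (H · 0)) (fderiv ℂ (fderiv ℂ (H · 0)) 0) (0 : V) :=
      h1.fderiv.differentiableAt.hasFDerivAt
    have e2 := e1.clm_apply (hasFDerivAt_const (Pi.single i (1 : ℂ) : V) (0 : V))
    have e3 : fderiv ℂ (pd i (H · 0)) 0 = _ := e2.fderiv
    simp only [hs]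
    rw [pd, e3]
    simp
  rw [h3, h3]
  exact h2 _ _

end

/-- A branch with `c = 1` gives an eigenvalue. -/
theorem eigen_of_branch {ξ : V → V} {γ : ℂ → V} {u : ℂ → ℂ} (hξ : DifferentiableAt ℂ ξ 0)
    (hξ0 : ξ 0 = 0) (hγ : AnalyticAt ℂ γ 0) (hγ0 : γ 0 = 0) (hγne : ∃ᶠ s in 𝓝 (0 : ℂ), γ s ≠ 0)
    (hu : ContinuousAt u 0) (hu0 : u 0 ≠ 0)
    (hode : ∀ᶠ s in 𝓝 (0 : ℂ), s • deriv γ s = u s • ξ (γ s)) :
    ∃ (v : V) (c : ℂ), v ≠ 0 ∧ c ≠ 0 ∧ fderiv ℂ ξ 0 v = c • v := by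
  obtain ⟨m, g, hg, hg0, hm⟩ := hγ.exists_eventuallyEq_pow_smul_nonzero_iff.2 (by
    intro h
    exact hγne (h.mono fun s hs => not_not.2 hs))
  simp only [sub_zero] at hm
  have hm0 : m ≠ 0 := by
    rintro rfl
    have := hm.self_of_nhds
    rw [hγ0, pow_zero, one_smul] at this
    exact hg0 this.symm
  refine ⟨g 0, m / u 0, hg0, div_ne_zero (Nat.cast_ne_zero.2 hm0) hu0, ?_⟩
  -- the limit of the right-hand side
  have l1 : Tendsto (fun s : ℂ => (s ^ m)⁻¹ • (ξ (0 + γ s) - ξ 0)) (𝓝[≠] 0)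
      (𝓝 (fderiv ℂ ξ 0 (g 0))) := by
    refine (hξ.hasFDerivAt.hasFDerivWithinAt (s := univ)).lim ?_
      (Eventually.of_forall fun _ => mem_univ _) ?_
    · have h1 := hγ.continuousAt.tendsto
      rw [hγ0] at h1
      exact h1.mono_left nhdsWithin_le_nhds
    · have h1 : Tendsto g (𝓝[≠] 0) (𝓝 (g 0)) :=
        hg.continuousAt.tendsto.mono_left nhdsWithin_le_nhds
      refine h1.congr' ?_
      filter_upwards [self_mem_nhdsWithin, nhdsWithin_le_nhds hm] with s hs hs2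
      have hs' : s ^ m ≠ 0 := pow_ne_zero _ hs
      rw [hs2, smul_smul, inv_mul_cancel₀ hs', one_smul]
  have l2 : Tendsto (fun s : ℂ => u s • ((s ^ m)⁻¹ • (ξ (0 + γ s) - ξ 0))) (𝓝[≠] 0)
      (𝓝 (u 0 • fderiv ℂ ξ 0 (g 0))) :=
    (hu.tendsto.mono_left nhdsWithin_le_nhds).smul l1
  -- the limit of the left-hand side
  have l3 : Tendsto (fun s : ℂ => (m : ℂ) • g s + s • deriv g s) (𝓝[≠] 0) (𝓝 ((m : ℂ) • g 0)) := by
    have h2 : Tendsto (fun s : ℂ => (m : ℂ) • g s + s • deriv g s) (𝓝 0)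
        (𝓝 ((m : ℂ) • g 0 + (0 : ℂ) • deriv g 0)) :=
      (tendsto_const_nhds.smul hg.continuousAt.tendsto).add
        (tendsto_id.smul hg.deriv.continuousAt.tendsto)
    rw [zero_smul, add_zero] at h2
    exact h2.mono_left nhdsWithin_le_nhds
  have l4 : Tendsto (fun s : ℂ => (m : ℂ) • g s + s • deriv g s) (𝓝[≠] 0)
      (𝓝 (u 0 • fderiv ℂ ξ 0 (g 0))) := by
    refine l2.congr' ?_
    have hev : ∀ᶠ s in 𝓝 (0 : ℂ), ∀ᶠ z in 𝓝 s, γ z = z ^ m • g z := hm.eventually_nhds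
    filter_upwards [self_mem_nhdsWithin, nhdsWithin_le_nhds hev, nhdsWithin_le_nhds hode,
      nhdsWithin_le_nhds hg.eventually_analyticAt] with s hs h1 h2 h3
    have hs' : s ≠ 0 := hs
    have hsm : s ^ m ≠ 0 := pow_ne_zero _ hs
    have h4 : HasDerivAt γ (s ^ m • deriv g s + (m * s ^ (m - 1)) • g s) s := by
      have h5 : HasDerivAt (fun z : ℂ => z ^ m) (m * s ^ (m - 1)) s := hasDerivAt_pow m s
      exact (h5.fun_smul h3.differentiableAt.hasDerivAt).congr_of_eventuallyEq h1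
    rw [zero_add, hξ0, sub_zero, smul_comm, ← h2, h4.deriv]
    obtain ⟨m', rfl⟩ : ∃ m', m = m' + 1 := ⟨m - 1, by omega⟩
    rw [Nat.add_sub_cancel]
    rw [smul_add, smul_add, smul_smul, smul_smul, smul_smul, smul_smul, add_comm]
    congr 1
    · congr 1
      field_simp
      ring
    · congr 1
      field_simp
  have l5 := tendsto_nhds_unique l3 l4
  rw [div_eq_inv_mul, mul_smul, l5, smul_smul, inv_mul_cancel₀ hu0, one_smul]

end Vale.Agent.P298.H652
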