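import Vale.Agent.P298.H652.Node2

/-!
The node case: simultaneous parametrization of a family of nodes.
-/

namespace Vale.Agent.P298.H652

open Filter Topology Metric Set Vale.Agent.P298 Vale.Agent.P298.H462

/-- The blown up system of equations of the branches of a node. -/
noncomputable def PsiN (G E : V → ℂ → ℂ) (l : V) (q : V × (ℂ × ℂ)) : V :=
  ![Q2 G ((q.1, q.2.2), q.2.1), Q1 E ((q.1, q.2.2), q.2.1), dt l q.1 - 1]

theorem continuous_dt (l : V) : Continuous fun x : V => dt l x := by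
  unfold dt
  fun_prop

section

variable {G E : V → ℂ → ℂ}

theorem analyticAt_swap (w : V) : AnalyticAt ℂ (fun q : V × (ℂ × ℂ) => ((q.1, q.2.2), q.2.1))
    (w, ((0 : ℂ), (0 : ℂ))) :=
  (((ContinuousLinearMap.fst ℂ V (ℂ × ℂ)).prod
    ((ContinuousLinearMap.snd ℂ ℂ ℂ).comp (ContinuousLinearMap.snd ℂ V (ℂ × ℂ)))).prod
    ((ContinuousLinearMap.fst ℂ ℂ ℂ).comp (ContinuousLinearMap.snd ℂ V (ℂ × ℂ)))).analyticAt _

theorem psiN_analytic (hG : AnalyticAt ℂ (fun p : V × ℂ => G p.1 p.2) (0, 0))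
    (hE : AnalyticAt ℂ (fun p : V × ℂ => E p.1 p.2) (0, 0)) (l w : V) :
    AnalyticAt ℂ (PsiN G E l) (w, (0, 0)) := by
  rw [analyticAt_pi_iff]
  intro i
  fin_cases i
  · exact AnalyticAt.comp (g := Q2 G) (f := fun q : V × (ℂ × ℂ) => ((q.1, q.2.2), q.2.1))
      (Q2_analytic hG w) (analyticAt_swap w)
  · exact AnalyticAt.comp (g := Q1 E) (f := fun q : V × (ℂ × ℂ) => ((q.1, q.2.2), q.2.1))
      (Q1_analytic hE w) (analyticAt_swap w)
  · have h1 : ∀ k : Fin 3, AnalyticAt ℂ (fun q : V × (ℂ × ℂ) => q.1 k) (w, ((0 : ℂ), (0 : ℂ))) :=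
      fun k => ((ContinuousLinearMap.proj (R := ℂ) k).comp
        (ContinuousLinearMap.fst ℂ V (ℂ × ℂ))).analyticAt _
    exact (((analyticAt_const.mul (h1 0)).add (analyticAt_const.mul (h1 1))).add
      (analyticAt_const.mul (h1 2))).sub analyticAt_const

theorem hasDerivAt_quad (A B C : ℂ) : HasDerivAt (fun τ : ℂ => A + τ * B + τ ^ 2 * C) B 0 := by
  have h1 : HasDerivAt (fun τ : ℂ => A + τ * B) (1 * B) 0 :=
    ((hasDerivAt_id' (0 : ℂ)).mul_const B).const_add A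
  have h2 : HasDerivAt (fun τ : ℂ => τ ^ 2 * C) (((2 : ℕ) * (0 : ℂ) ^ (2 - 1)) * C) 0 :=
    (hasDerivAt_pow 2 (0 : ℂ)).mul_const C
  exact (h1.fun_add h2).congr_deriv (by simp)

theorem psiN_fderiv (hG : AnalyticAt ℂ (fun p : V × ℂ => G p.1 p.2) (0, 0))
    (hE : AnalyticAt ℂ (fun p : V × ℂ => E p.1 p.2) (0, 0)) (l v x : V) :
    fderiv ℂ (PsiN G E l) (v, (0, 0)) (x, 0) =
      ![dt (mv (hs G) v) x, dt (gr E 0) x, dt l x] := by
  have h1 : HasDerivAt (fun τ : ℂ => (v + τ • x, ((0 : ℂ), (0 : ℂ)))) (x, (0 : ℂ × ℂ)) 0 := by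
    refine HasDerivAt.prodMk ?_ (hasDerivAt_const _ _)
    simpa using ((hasDerivAt_id (0 : ℂ)).smul_const x).const_add v
  have h2 : HasDerivAt (fun τ : ℂ => PsiN G E l (v + τ • x, (0, 0)))
      (fderiv ℂ (PsiN G E l) (v, (0, 0)) (x, 0)) 0 := by
    refine HasFDerivAt.comp_hasDerivAt (l := PsiN G E l) (0 : ℂ) ?_ h1
    simpa using (psiN_analytic hG hE l v).differentiableAt.hasFDerivAt
  have h3 := hasDerivAt_pi.1 h2
  ext i
  fin_cases i
  · have h4 : (fun τ : ℂ => PsiN G E l (v + τ • x, (0, 0)) 0) = fun τ : ℂ =>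
        (1 / 2) * dt (mv (hs G) v) v + τ * dt (mv (hs G) v) x +
          τ ^ 2 * ((1 / 2) * dt (mv (hs G) x) x) := by
      ext τ
      have h5 := Q2_zero hG (v + τ • x)
      have h6 : PsiN G E l (v + τ • x, (0, 0)) 0 = Q2 G ((v + τ • x, 0), 0) := rfl
      have h7 : dt (mv (hs G) (v + τ • x)) (v + τ • x) = dt (mv (hs G) v) v +
          τ * (dt (mv (hs G) v) x + dt (mv (hs G) x) v) + τ ^ 2 * dt (mv (hs G) x) x := by
        simp only [dt, mv, Pi.add_apply, Pi.smul_apply, smul_eq_mul]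
        ring
      rw [mv_symm (hs_symm hG) x v] at h7
      rw [h6]
      linear_combination (1 / 2) * h5 + (1 / 2) * h7
    have h8 := h3 0
    rw [h4] at h8
    exact h8.unique (hasDerivAt_quad _ _ _)
  · have h4 : (fun τ : ℂ => PsiN G E l (v + τ • x, (0, 0)) 1) = fun τ : ℂ =>
        dt (gr E 0) v + τ * dt (gr E 0) x + τ ^ 2 * 0 := by
      ext τ
      have h6 : PsiN G E l (v + τ • x, (0, 0)) 1 = Q1 E ((v + τ • x, 0), 0) := rfl
      rw [h6, Q1_zero hE]
      simp only [dt, Pi.add_apply, Pi.smul_apply, smul_eq_mul]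
      ring
    have h8 := h3 1
    rw [h4] at h8
    exact h8.unique (hasDerivAt_quad _ _ _)
  · have h4 : (fun τ : ℂ => PsiN G E l (v + τ • x, (0, 0)) 2) = fun τ : ℂ =>
        (dt l v - 1) + τ * dt l x + τ ^ 2 * 0 := by
      ext τ
      have h6 : PsiN G E l (v + τ • x, (0, 0)) 2 = dt l (v + τ • x) - 1 := rfl
      rw [h6]
      simp only [dt, Pi.add_apply, Pi.smul_apply, smul_eq_mul]
      ring
    have h8 := h3 2
    rw [h4] at h8
    exact h8.unique (hasDerivAt_quad _ _ _)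

/-- The branch of the node with given tangent vector. -/
theorem exists_branch (hG : AnalyticAt ℂ (fun p : V × ℂ => G p.1 p.2) (0, 0))
    (hE : AnalyticAt ℂ (fun p : V × ℂ => E p.1 p.2) (0, 0)) {l v : V} {c : ℂ} (hc : c ≠ 0)
    (he : cr (mv (hs G) v) (gr E 0) = c • v) (hl : dt l v = 1) :
    ∃ X : ℂ × ℂ → V, AnalyticAt ℂ X (0, 0) ∧ X (0, 0) = v ∧
      (∀ᶠ p in 𝓝 ((0 : ℂ), (0 : ℂ)), PsiN G E l (X p, p) = 0) ∧
      ∀ᶠ q in 𝓝 (v, ((0 : ℂ), (0 : ℂ))), PsiN G E l q = 0 → q.1 = X q.2 := by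
  obtain ⟨h1, h2⟩ := iso_of_eigen hc he
  refine exists_implicit_pt (psiN_analytic hG hE l v) ?_ ?_
  · have e1 := Q2_zero hG v
    have e2 := Q1_zero hE v
    rw [h2] at e1
    rw [h1] at e2
    ext i
    fin_cases i
    · exact (mul_eq_zero.1 e1).resolve_left two_ne_zero
    · exact e2
    · show dt l v - 1 = 0
      rw [hl, sub_self]
  · set L : V →ₗ[ℂ] V := ((fderiv ℂ (PsiN G E l) (v, (0, 0))).comp
      (ContinuousLinearMap.inl ℂ V (ℂ × ℂ))).toLinearMap with hL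
    have hLx : ∀ x, L x = ![dt (mv (hs G) v) x, dt (gr E 0) x, dt l x] := by
      intro x
      rw [← psiN_fderiv hG hE l v x]
      rfl
    have hinj : Function.Injective L := by
      rw [← LinearMap.ker_eq_bot, LinearMap.ker_eq_bot']
      intro x hx
      rw [hLx] at hx
      refine eq_zero_of_dt (p := mv (hs G) v) (q := gr E 0) (l := l) (congrFun hx 0)
        (congrFun hx 1) (congrFun hx 2) ?_
      rw [he, smul_dt, dt_comm, hl, mul_one]
      exact hc
    refine ⟨(LinearEquiv.ofInjectiveEndo L hinj).toContinuousLinearEquiv, fun x => ?_⟩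
    simp only [LinearEquiv.coe_toContinuousLinearEquiv', LinearEquiv.coe_ofInjectiveEndo]
    rfl

/-- A family of nodes. -/
theorem node_core (hG : AnalyticAt ℂ (fun p : V × ℂ => G p.1 p.2) (0, 0))
    (hE : AnalyticAt ℂ (fun p : V × ℂ => E p.1 p.2) (0, 0))
    (G0 : ∀ᶠ t in 𝓝 (0 : ℂ), G 0 t = 0) (E0 : ∀ᶠ t in 𝓝 (0 : ℂ), E 0 t = 0)
    (hgr : ∀ᶠ t in 𝓝 (0 : ℂ), gr G t = 0) {l : V} {v : Fin 2 → V} {c : Fin 2 → ℂ}
    (hc : ∀ i, c i ≠ 0) (he : ∀ i, cr (mv (hs G) (v i)) (gr E 0) = c i • v i)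
    (hl : ∀ i, dt l (v i) = 1) (hne : v 0 ≠ v 1)
    (hcl : ∀ w, dt (gr E 0) w = 0 → dt (mv (hs G) w) w = 0 → ∃ (α : ℂ) (i : Fin 2), w = α • v i) :
    ∃ (γ : Fin 2 → ℂ → ℂ → V) (ρ : ℝ), H119.ParamCurves G E γ ρ := by
  choose X hXa hX0 hXe hXu using fun i => exists_branch hG hE (hc i) (he i) (hl i)
  have hXa' : ∀ᶠ q in 𝓝 ((0 : ℂ), (0 : ℂ)), ∀ i, AnalyticAt ℂ (X i) q :=
    eventually_all.2 fun i => (hXa i).eventually_analyticAt
  have hXe' : ∀ᶠ q in 𝓝 ((0 : ℂ), (0 : ℂ)), ∀ i, PsiN G E l (X i q, q) = 0 :=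
    eventually_all.2 hXe
  have hXn : ∀ᶠ q in 𝓝 ((0 : ℂ), (0 : ℂ)), X 0 q ≠ X 1 q := by
    have h1 : Tendsto (fun q => X 0 q - X 1 q) (𝓝 ((0 : ℂ), (0 : ℂ)))
        (𝓝 (X 0 (0, 0) - X 1 (0, 0))) :=
      (hXa 0).continuousAt.tendsto.sub (hXa 1).continuousAt.tendsto
    have h2 : X 0 (0, 0) - X 1 (0, 0) ≠ 0 := by
      rw [hX0, hX0]
      exact sub_ne_zero.2 hne
    filter_upwards [h1.eventually_ne h2] with q hq
    exact sub_ne_zero.1 hq
  have hsnd : Tendsto (fun q : ℂ × ℂ => q.2) (𝓝 ((0 : ℂ), (0 : ℂ))) (𝓝 0) :=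
    continuous_snd.tendsto _
  have hG0t : Tendsto (fun t : ℂ => ((0 : V), t)) (𝓝 0) (𝓝 ((0 : V), (0 : ℂ))) :=
    (by fun_prop : Continuous fun t : ℂ => ((0 : V), t)).tendsto 0
  have hGt : ∀ᶠ t in 𝓝 (0 : ℂ), G 0 t = 0 ∧ E 0 t = 0 ∧ ∀ w, Q1 G ((w, t), 0) = 0 := by
    filter_upwards [G0, E0, hgr, hG0t.eventually hG.eventually_analyticAt] with t h1 h2 h3 h4
    refine ⟨h1, h2, fun w => ?_⟩
    rw [Q1_zero h4, h3]
    simp [dt]
  -- the relations between the functions and the quotients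
  have relG : ∀ t, G 0 t = 0 → (∀ w, Q1 G ((w, t), 0) = 0) → ∀ (w : V) (s : ℂ),
      s * (s * Q2 G ((w, t), s)) = G (s • w) t := by
    intro t h1 h2 w s
    rw [mul_Q2, h2, sub_zero, mul_Q1, h1, sub_zero]
  have relE : ∀ t, E 0 t = 0 → ∀ (w : V) (s : ℂ), s * Q1 E ((w, t), s) = E (s • w) t := by
    intro t h1 w s
    rw [mul_Q1, h1, sub_zero]
  obtain ⟨ρ, hρ, hb⟩ := Metric.eventually_nhds_iff_ball.1
    (hXa'.and (hXe'.and (hXn.and (hsnd.eventually hGt))))
  have hb' : ∀ s ∈ ball (0 : ℂ) ρ, ∀ t ∈ ball (0 : ℂ) ρ, (s, t) ∈ ball ((0 : ℂ), (0 : ℂ)) ρ := by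
    intro s hs t ht
    rw [← ball_prod_same]
    exact ⟨hs, ht⟩
  have hmem : ∀ i, ∀ s ∈ ball (0 : ℂ) ρ, ∀ t ∈ ball (0 : ℂ) ρ,
      G (s • X i (s, t)) t = 0 ∧ E (s • X i (s, t)) t = 0 ∧ dt l (X i (s, t)) = 1 := by
    intro i s hs t ht
    obtain ⟨_, h2, _, h4, h5, h6⟩ := hb _ (hb' s hs t ht)
    have e0 : Q2 G ((X i (s, t), t), s) = 0 := congrFun (h2 i) 0
    have e1 : Q1 E ((X i (s, t), t), s) = 0 := congrFun (h2 i) 1
    have e2 : dt l (X i (s, t)) - 1 = 0 := congrFun (h2 i) 2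
    refine ⟨?_, ?_, sub_eq_zero.1 e2⟩
    · rw [← relG t h4 h6, e0, mul_zero, mul_zero]
    · rw [← relE t h5, e1, mul_zero]
  refine ⟨fun i s t => s • X i (s, t), ρ, ⟨hρ, ?_, ?_, ?_, ?_, ?_, ?_⟩⟩
  · intro i s hs t ht
    exact analyticAt_fst.smul ((hb _ (hb' s hs t ht)).1 i)
  · intro i t _
    exact zero_smul ℂ _
  · intro i s hs t ht
    exact ⟨(hmem i s hs t ht).1, (hmem i s hs t ht).2.1⟩
  · intro i s hs t ht _ h0
    have d1 : HasDerivAt (fun s => s • X i (s, t)) (deriv (fun s => s • X i (s, t)) s) s := by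
      apply DifferentiableAt.hasDerivAt
      have h1 : DifferentiableAt ℂ (fun s => X i (s, t)) s :=
        DifferentiableAt.comp (g := X i) s ((hb _ (hb' s hs t ht)).1 i).differentiableAt
          (by fun_prop)
      exact differentiableAt_id.smul h1
    have h0' : deriv (fun s => s • X i (s, t)) s = 0 := h0
    rw [h0'] at d1
    have d2 := hasDerivAt_pi.1 d1
    have d3 : HasDerivAt (fun s => dt l (s • X i (s, t))) (l 0 * 0 + l 1 * 0 + l 2 * 0) s :=
      (((d2 0).const_mul (l 0)).fun_add ((d2 1).const_mul (l 1))).fun_add ((d2 2).const_mul (l 2))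
    have d4 : HasDerivAt (fun s => dt l (s • X i (s, t))) 1 s := by
      refine (hasDerivAt_id' s).congr_of_eventuallyEq ?_
      filter_upwards [isOpen_ball.mem_nhds hs] with z hz
      rw [dt_smul, (hmem i z hz t ht).2.2, mul_one]
    have d5 := d3.unique d4
    simp at d5
  · intro i j s hs s' hs' t ht h
    have h' : s • X i (s, t) = s' • X j (s', t) := h
    have e1 := congrArg (dt l) h'
    rw [dt_smul, dt_smul, (hmem i s hs t ht).2.2, (hmem j s' hs' t ht).2.2, mul_one, mul_one] at e1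
    subst e1
    by_cases hs0 : s = 0
    · exact Or.inl ⟨hs0, hs0⟩
    · refine Or.inr ⟨?_, rfl⟩
      have e2 := smul_right_injective V hs0 h'
      have e3 := (hb _ (hb' s hs t ht)).2.2.1
      fin_cases i <;> fin_cases j
      · rfl
      · exact absurd e2 e3
      · exact absurd e2.symm e3
      · rfl
  · intro ε hε
    -- the claim near the points of the unit sphere
    have claim : ∀ w ∈ sphere (0 : V) 1, ∀ᶠ x in 𝓝 (w, ((0 : ℂ), (0 : ℂ))), x.2.1 ≠ 0 →
        G (x.2.1 • x.1) x.2.2 = 0 → E (x.2.1 • x.1) x.2.2 = 0 →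
        ∃ i, ∃ s ∈ ball (0 : ℂ) ε, x.2.1 • x.1 = s • X i (s, x.2.2) := by
      intro w hw
      have hw0 : w ≠ 0 := by
        rintro rfl
        simp at hw
      have hGt' : ∀ᶠ x in 𝓝 (w, ((0 : ℂ), (0 : ℂ))),
          G 0 x.2.2 = 0 ∧ E 0 x.2.2 = 0 ∧ ∀ w, Q1 G ((w, x.2.2), 0) = 0 := by
        have : Tendsto (fun x : V × (ℂ × ℂ) => x.2.2) (𝓝 (w, ((0 : ℂ), (0 : ℂ)))) (𝓝 0) :=
          (by fun_prop : Continuous fun x : V × (ℂ × ℂ) => x.2.2).tendsto _
        exact this.eventually hGt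
      have hsw := (analyticAt_swap w).continuousAt
      by_cases h1 : dt (gr E 0) w = 0
      · by_cases h2 : dt (mv (hs G) w) w = 0
        · obtain ⟨α, i, hα⟩ := hcl w h1 h2
          have hα0 : α ≠ 0 := by
            rintro rfl
            rw [zero_smul] at hα
            exact hw0 hα
          have hlw : dt l w = α := by rw [hα, dt_smul, hl, mul_one]
          have c1 : ContinuousAt (fun x : V × (ℂ × ℂ) => dt l x.1) (w, ((0 : ℂ), (0 : ℂ))) :=
            ((continuous_dt l).comp continuous_fst).continuousAt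
          have c2 : ∀ᶠ x in 𝓝 (w, ((0 : ℂ), (0 : ℂ))), dt l x.1 ≠ 0 :=
            c1.eventually_ne (by rw [hlw]; exact hα0)
          have c3 : Tendsto (fun x : V × (ℂ × ℂ) => ((dt l x.1)⁻¹ • x.1, (x.2.1 * dt l x.1, x.2.2)))
              (𝓝 (w, ((0 : ℂ), (0 : ℂ)))) (𝓝 (v i, ((0 : ℂ), (0 : ℂ)))) := by
            have c4 : ContinuousAt (fun x : V × (ℂ × ℂ) =>
                ((dt l x.1)⁻¹ • x.1, (x.2.1 * dt l x.1, x.2.2))) (w, ((0 : ℂ), (0 : ℂ))) := by
              refine ContinuousAt.prodMk ((c1.inv₀ (by rw [hlw]; exact hα0)).smul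
                continuousAt_fst) (ContinuousAt.prodMk (ContinuousAt.mul (by fun_prop) c1)
                (by fun_prop))
            have c5 := c4.tendsto
            simp only [hlw, zero_mul] at c5
            rwa [hα, smul_smul, inv_mul_cancel₀ hα0, one_smul, ← hα] at c5
          have c6 : ∀ᶠ x in 𝓝 (w, ((0 : ℂ), (0 : ℂ))), x.2.1 * dt l x.1 ∈ ball (0 : ℂ) ε := by
            have c7 : ContinuousAt (fun x : V × (ℂ × ℂ) => x.2.1 * dt l x.1)
              (w, ((0 : ℂ), (0 : ℂ))) := ContinuousAt.mul (by fun_prop) c1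
            refine c7.tendsto.eventually (isOpen_ball.mem_nhds ?_)
            simp [hε]
          filter_upwards [hGt', c2, c3.eventually (hXu i), c6] with x x1 x2 x3 x4 x5 x6 x7
          obtain ⟨y1, y2, y3⟩ := x1
          set z : V := (dt l x.1)⁻¹ • x.1 with hz
          set s : ℂ := x.2.1 * dt l x.1 with hs
          have hs0 : s ≠ 0 := mul_ne_zero x5 x2
          have hsz : s • z = x.2.1 • x.1 := by
            rw [hz, hs, smul_smul, mul_assoc, mul_inv_cancel₀ x2, mul_one]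
          have e1 : Q2 G ((z, x.2.2), s) = 0 := by
            have := relG x.2.2 y1 y3 z s
            rw [hsz, x6] at this
            exact ((mul_eq_zero.1 ((mul_eq_zero.1 this).resolve_left hs0)).resolve_left hs0)
          have e2 : Q1 E ((z, x.2.2), s) = 0 := by
            have := relE x.2.2 y2 z s
            rw [hsz, x7] at this
            exact (mul_eq_zero.1 this).resolve_left hs0
          have e3 : dt l z - 1 = 0 := by
            rw [hz, dt_smul, inv_mul_cancel₀ x2, sub_self]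
          have e4 : PsiN G E l (z, (s, x.2.2)) = 0 := by
            ext k
            fin_cases k
            · exact e1
            · exact e2
            · exact e3
          have e5 : z = X i (s, x.2.2) := x3 e4
          exact ⟨i, s, x4, by rw [← hsz, ← e5]⟩
        · have c1 : ContinuousAt (fun q : V × (ℂ × ℂ) => Q2 G ((q.1, q.2.2), q.2.1))
              (w, ((0 : ℂ), (0 : ℂ))) :=
            ContinuousAt.comp (g := Q2 G) (f := fun q : V × (ℂ × ℂ) => ((q.1, q.2.2), q.2.1))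
              (Q2_analytic hG w).continuousAt hsw
          have c2 : Q2 G ((w, 0), 0) ≠ 0 := by
            intro h
            have := Q2_zero hG w
            rw [h, mul_zero] at this
            exact h2 this.symm
          filter_upwards [hGt', c1.eventually_ne c2] with x x1 x2 x5 x6 x7
          exfalso
          have := relG x.2.2 x1.1 x1.2.2 x.1 x.2.1
          rw [x6] at this
          exact mul_ne_zero x5 (mul_ne_zero x5 x2) this
      · have c1 : ContinuousAt (fun q : V × (ℂ × ℂ) => Q1 E ((q.1, q.2.2), q.2.1))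
            (w, ((0 : ℂ), (0 : ℂ))) :=
          ContinuousAt.comp (g := Q1 E) (f := fun q : V × (ℂ × ℂ) => ((q.1, q.2.2), q.2.1))
            (Q1_analytic hE w).continuousAt hsw
        have c2 : Q1 E ((w, 0), 0) ≠ 0 := by
          rw [Q1_zero hE]
          exact h1
        filter_upwards [hGt', c1.eventually_ne c2] with x x1 x2 x5 x6 x7
        exfalso
        have := relE x.2.2 x1.2.1 x.1 x.2.1
        rw [x7] at this
        exact mul_ne_zero x5 x2 this
    -- the tube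
    have h1 : {x : V × (ℂ × ℂ) | x.2.1 ≠ 0 →
        G (x.2.1 • x.1) x.2.2 = 0 → E (x.2.1 • x.1) x.2.2 = 0 →
        ∃ i, ∃ s ∈ ball (0 : ℂ) ε, x.2.1 • x.1 = s • X i (s, x.2.2)} ∈
        𝓝ˢ (sphere (0 : V) 1 ×ˢ ({((0 : ℂ), (0 : ℂ))} : Set (ℂ × ℂ))) := by
      rw [mem_nhdsSet_iff_forall]
      rintro ⟨w, q⟩ ⟨hw, hq⟩
      rw [mem_singleton_iff] at hq
      simp only at hq
      subst hq
      exact claim w hw
    rw [(isCompact_sphere (0 : V) 1).nhdsSet_prod_eq isCompact_singleton,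
      ((hasBasis_nhdsSet _).prod (hasBasis_nhdsSet _)).mem_iff] at h1
    obtain ⟨⟨U, U'⟩, ⟨⟨_, hKU⟩, hU', h0U'⟩, hUU'⟩ := h1
    have h2 : U' ∈ 𝓝 ((0 : ℂ), (0 : ℂ)) := hU'.mem_nhds (h0U' rfl)
    have h3 : Tendsto (fun p : V × ℂ => (((‖p.1‖ : ℝ) : ℂ), p.2)) (𝓝 ((0 : V), (0 : ℂ)))
        (𝓝 ((0 : ℂ), (0 : ℂ))) := by
      have : Continuous fun p : V × ℂ => (((‖p.1‖ : ℝ) : ℂ), p.2) := by fun_prop
      simpa using this.tendsto ((0 : V), (0 : ℂ))
    filter_upwards [h3 h2] with p hp hp1 hp2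
    by_cases hx : p.1 = 0
    · exact ⟨0, 0, mem_ball_self hε, by rw [zero_smul]; exact hx⟩
    · have hr : ((‖p.1‖ : ℝ) : ℂ) ≠ 0 := Complex.ofReal_ne_zero.2 (norm_ne_zero_iff.2 hx)
      have hsm : ((‖p.1‖ : ℝ) : ℂ) • (((‖p.1‖ : ℝ) : ℂ)⁻¹ • p.1) = p.1 := by
        rw [smul_smul, mul_inv_cancel₀ hr, one_smul]
      have hu : ((‖p.1‖ : ℝ) : ℂ)⁻¹ • p.1 ∈ sphere (0 : V) 1 := by
        rw [mem_sphere_zero_iff_norm, norm_smul, norm_inv, Complex.norm_real, norm_norm]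
        exact inv_mul_cancel₀ (norm_ne_zero_iff.2 hx)
      have h4 := hUU' (show ((((‖p.1‖ : ℝ) : ℂ)⁻¹ • p.1), (((‖p.1‖ : ℝ) : ℂ), p.2)) ∈ U ×ˢ U' from
        ⟨hKU hu, hp⟩)
      have h5 := h4 hr
      simp only [hsm] at h5
      exact h5 hp1 hp2

end

end Vale.Agent.P298.H652
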